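import Vale.Agent.P088.R2.H87.X7

/-!
# P088, the mixed term: rowEQX
-/

open MeasureTheory Set Filter
open scoped ContDiff Matrix Topology

noncomputable section

namespace Vale.Agent.P088.HY

open Vale.Agent.P088.LR

variable {n : ℕ}

namespace EQX

lemma su_ps : SU (ps : VV n → ℝ) :=
  su_uu.sub (su_uu.inv fun _ hz => (lt_of_lt_of_le one_pos (one_le_uu hz)).ne')

lemma tf_g2 {f : VV n → ℝ} (hf : TF (Un n) f) : TF (Un n) (g2 f) :=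
  (TF.sum _ fun i => (hf.Ax i).pow2).add (TF.sum _ fun i => (hf.By i).pow2)

lemma tf_cr {f : VV n → ℝ} (hf : TF (Un n) f) : TF (Un n) (cr f) :=
  TF.sum _ fun i => TF.sum _ fun j => ((hf.Ax i).mul_su (su_mm i j)).mul (hf.By j)

lemma tf_Hm {f : VV n → ℝ} (hf : TF (Un n) f) : TF (Un n) (Hm f) :=
  ((tf_g2 hf).smul su_uu).sub ((tf_cr hf).const_mul 2)

lemma tf_Nb (τ : ℝ) {f : VV n → ℝ} (hf : TF (Un n) f) : TF (Un n) (Nb τ f) :=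
  ((hf.pow2.smul ((contDiffOn_const (c := τ ^ 3)).mul ((su_uu.pow 2).mul su_ps))).add
    (hf.pow2.smul ((contDiffOn_const (c := τ ^ 2)).mul (su_uu.pow 2)))).add
    ((tf_g2 hf).smul ((contDiffOn_const (c := τ)).mul su_uu))

lemma tf_Nc (τ : ℝ) {f : VV n → ℝ} (hf : TF (Un n) f) : TF (Un n) (Nc τ f) :=
  ((((hf.pow2.smul ((contDiffOn_const (c := τ ^ 3)).mul (su_uu.mul (su_ps.pow 2)))).add
    (hf.pow2.const_mul τ)).add
    ((tf_g2 hf).smul ((contDiffOn_const (c := τ)).mul su_ps))).add (tf_g2 hf)).add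
    ((tf_Hm hf).const_mul τ)

lemma pt_of {z : VV n} (hz : z ∈ Un n) {τ : ℝ} (hτ : 1 ≤ τ) (b c : VV n → ℝ) :
    Pt n (uu z) (ww z) (ps z) τ |b z| |c z| (gr b z) (gr c z) (gp c z) (Hm c z) where
  u1 := one_le_uu hz
  W0 := ww_nonneg
  Wu := ww_le hz
  p0 := ps_nonneg hz
  up := ups hz
  uw := ww_sq hz
  ule := u_le_ps hz
  τ1 := hτ
  β0 := abs_nonneg _
  γ0 := abs_nonneg _
  P0 := gr_nonneg _ _
  Q0 := gr_nonneg _ _
  G0 := gp_nonneg _ _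
  H0 := Hm_nonneg hz _
  hG := by rw [gr_sq]; exact diag hz c

/-- The constant. -/
def cR (n : ℕ) (C₀ : ℝ) : ℝ := kK n * ((8 * (n : ℝ) ^ 2 * (n + 1) +
  2 * (12 * (n : ℝ) ^ 2 * (4 * n + 1) + 4 * cE n)) + 16 * (n : ℝ) ^ 2 +
  4 * (n : ℝ) ^ 2 * (4 * n + 10) * (5 * n + 2) + 8 * ((12 * (n : ℝ) ^ 4 + 17 * (n : ℝ) ^ 3) +
  2 * (n : ℝ) ^ 3 + 3 * (n : ℝ) ^ 3) + 5 * cD n C₀) + 1

lemma cD_nonneg (n : ℕ) {C₀ : ℝ} (h : 0 ≤ C₀) : 0 ≤ cD n C₀ := by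
  have h1 := cv_nonneg n
  have h2 := cE_nonneg n
  unfold cD; positivity

lemma kK_nonneg (n : ℕ) : 0 ≤ kK n := by unfold kK; positivity

lemma cR_pos (n : ℕ) {C₀ : ℝ} (h : 0 ≤ C₀) : 0 < cR n C₀ := by
  have h1 := cD_nonneg n h
  have h2 := cE_nonneg n
  have h3 := kK_nonneg n
  unfold cR; positivity

section bound

variable {ε η : ℝ} {s₁ s₂ : MF n}

lemma abs_RR (h1 : TS n 3 ε s₁) (h2 : TS n 3 ε s₂) (hd : DB 3 η s₁ s₂) (h0 : 0 ≤ ε)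
    (hε : ε ≤ 1) {C₀ : ℝ} (hC : 0 ≤ C₀) {z : VV n} (hz : z ∈ Un n)
    (hk1 : ∀ i, |By i (kax s₁) z - n * be i z| ≤ C₀ * ε * uu z)
    (hk2 : ∀ i, |Ax i (kay s₂) z - n * al i z| ≤ C₀ * ε * uu z)
    (hl1 : |L0x s₁ (kax s₁) z - n ^ 2 * uu z| ≤ C₀ * ε * uu z)
    (hl2 : |L0y s₂ (kay s₂) z - n ^ 2 * uu z| ≤ C₀ * ε * uu z)
    (hg1 : |Gax s₁ uu (vx s₁) z| ≤ C₀ * ε * uu z) (hg2 : |Gay s₂ uu (vy s₂) z| ≤ C₀ * ε * uu z)
    {τ : ℝ} (hτ : 1 ≤ τ) (hη : τ * η ≤ ε) {b c : VV n → ℝ} (hb : SU b) (hc : SU c) :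
    |RR s₁ s₂ τ b c z| ≤ cR n C₀ * (ε + 1 / √τ) * (Nb τ b z + Nc τ c z) := by
  have pt := pt_of hz hτ b c
  have hτ0 : (0 : ℝ) ≤ τ := by linarith
  have hu0 := pt.u1
  have hW0 := pt.W0
  have hβ0 := pt.β0
  have hγ0 := pt.γ0
  have hP0 := pt.P0
  have hQ0 := pt.Q0
  have hG0 := pt.G0
  have hcE := cE_nonneg n
  have hK := kK_nonneg n
  have hcD := cD_nonneg n hC
  have hs : 0 < √τ := Real.sqrt_pos.2 (by linarith)
  have pA := abs_PA h1 h2 hd h0 hε hτ0 b c hz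
  have pB := abs_PB h1 h2 h0 hε hτ0 b c hz
  have pC := abs_C1 h1 h2 hd h0 hε c hz
  have pD := abs_PD h1 h2 hd h0 hε hC hz hk1 hk2 hl1 hl2 hg1 hg2 hτ hη
  have hN : Nb τ b z + Nc τ c z = NB (uu z) (ps z) τ |b z| (gr b z) +
      NC (uu z) (ps z) τ |c z| (gr c z) (Hm c z) := by
    unfold Nb Nc NB NC
    rw [sq_abs, sq_abs, gr_sq, gr_sq]
  have hN0 : 0 ≤ NB (uu z) (ps z) τ |b z| (gr b z) +
      NC (uu z) (ps z) τ |c z| (gr c z) (Hm c z) := add_nonneg pt.NB0 pt.NC0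
  have q1 := pt.m1
  have q2 := pt.m2
  have q2' := pt.m2'
  have q3 := pt.m3
  have q4 := pt.m4
  have q5 := pt.m5
  have q6 := pt.m6
  have q7 := pt.m7
  have q8 := pt.m8
  have q9 := pt.m9
  have q10 := pt.m10
  have q11 := pt.m11
  have q12 := pt.m12
  rw [RR_eq h1 h2 τ hb hc hz, hN]
  generalize hNN : NB (uu z) (ps z) τ |b z| (gr b z) +
      NC (uu z) (ps z) τ |c z| (gr c z) (Hm c z) = N at *
  generalize uu z = u at *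
  generalize ww z = W at *
  generalize gr b z = P at *
  generalize gr c z = Q at *
  generalize gp c z = G at *
  have pC' : |8 * τ ^ 2 * (b z * C1 s₁ s₂ c z)| ≤ 8 * τ ^ 2 * (|b z| *
      ((12 * (n : ℝ) ^ 4 + 17 * (n : ℝ) ^ 3) * (ε * W ^ 2 * Q) +
      2 * (n : ℝ) ^ 3 * (ε * W * G) + 3 * (n : ℝ) ^ 3 * (η * W * Q))) :=
    abs_mul_le (by rw [abs_of_nonneg (by positivity)]) (abs_mul_le le_rfl pC)
  have pD' : |PD s₁ s₂ τ z * (b z * c z)| ≤ cD n C₀ * (ε * (τ * u) + ε * (τ ^ 2 * W * u) +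
      ε * (τ * u ^ 2) + ε * (τ ^ 3 * W ^ 3) + ε * (τ ^ 2 * u * W ^ 2)) * (|b z| * |c z|) :=
    abs_mul_le pD (abs_mul_le le_rfl le_rfl)
  generalize |b z| = β at *
  generalize |c z| = γ at *
  refine (abs_add_le _ _).trans ((add_le_add ((abs_add_le _ _).trans (add_le_add
    ((abs_add_le _ _).trans (add_le_add pA pB)) pC')) pD').trans ?_)
  -- the monomials with their factors
  have r1 : ε * τ * u * P * G ≤ ε * (kK n * N) := by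
    have := mul_le_mul_of_nonneg_left q1 h0
    calc ε * τ * u * P * G = ε * (τ * u * P * G) := by ring
      _ ≤ _ := this
  have r2 : τ * (ε * W + η * u) * P * Q ≤ 2 * (ε * (kK n * N)) := by
    have a1 := mul_le_mul_of_nonneg_left q2 h0
    have a2 := mul_le_mul_of_nonneg_left q2' h0
    have a3 : τ * η * (u * P * Q) ≤ ε * (u * P * Q) :=
      mul_le_mul_of_nonneg_right hη (by positivity)
    calc τ * (ε * W + η * u) * P * Q = ε * (τ * W * P * Q) + τ * η * (u * P * Q) := by ring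
      _ ≤ _ := by linarith
  have r3 : τ * W * β * Q ≤ 1 / √τ * (kK n * N) := by
    rw [one_div, ← div_eq_inv_mul, le_div_iff₀ hs]
    linarith
  have r4 : ε * τ * u * β * Q ≤ ε * (kK n * N) := by
    have := mul_le_mul_of_nonneg_left q4 h0
    calc ε * τ * u * β * Q = ε * (τ * u * β * Q) := by ring
      _ ≤ _ := this
  have r5 := mul_le_mul_of_nonneg_left q5 h0
  have r6 := mul_le_mul_of_nonneg_left q6 h0
  have r7 : τ * η * (τ * W * β * Q) ≤ ε * (kK n * N) :=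
    (mul_le_mul_of_nonneg_right hη (by positivity)).trans (mul_le_mul_of_nonneg_left q7 h0)
  have r8 := mul_le_mul_of_nonneg_left q8 h0
  have r9 := mul_le_mul_of_nonneg_left q9 h0
  have r10 := mul_le_mul_of_nonneg_left q10 h0
  have r11 := mul_le_mul_of_nonneg_left q11 h0
  have r12 := mul_le_mul_of_nonneg_left q12 h0
  -- the sums
  have v1 : 8 * (n : ℝ) ^ 2 * (n + 1) * (ε * τ * u * P * G) ≤
      8 * (n : ℝ) ^ 2 * (n + 1) * (ε * (kK n * N)) :=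
    mul_le_mul_of_nonneg_left r1 (by positivity)
  have v2 : (12 * (n : ℝ) ^ 2 * (4 * n + 1) + 4 * cE n) * (τ * (ε * W + η * u) * P * Q) ≤
      (12 * (n : ℝ) ^ 2 * (4 * n + 1) + 4 * cE n) * (2 * (ε * (kK n * N))) :=
    mul_le_mul_of_nonneg_left r2 (by positivity)
  have v3 : 16 * (n : ℝ) ^ 2 * (τ * W * β * Q) ≤ 16 * (n : ℝ) ^ 2 * (1 / √τ * (kK n * N)) :=
    mul_le_mul_of_nonneg_left r3 (by positivity)
  have v4 : 4 * (n : ℝ) ^ 2 * (4 * n + 10) * (5 * n + 2) * (ε * τ * u * β * Q) ≤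
      4 * (n : ℝ) ^ 2 * (4 * n + 10) * (5 * n + 2) * (ε * (kK n * N)) :=
    mul_le_mul_of_nonneg_left r4 (by positivity)
  have v5 : 8 * τ ^ 2 * (β * ((12 * (n : ℝ) ^ 4 + 17 * (n : ℝ) ^ 3) * (ε * W ^ 2 * Q) +
      2 * (n : ℝ) ^ 3 * (ε * W * G) + 3 * (n : ℝ) ^ 3 * (η * W * Q))) ≤
      8 * ((12 * (n : ℝ) ^ 4 + 17 * (n : ℝ) ^ 3) + 2 * (n : ℝ) ^ 3 + 3 * (n : ℝ) ^ 3) *
        (ε * (kK n * N)) := by
    have a1 : (12 * (n : ℝ) ^ 4 + 17 * (n : ℝ) ^ 3) * (ε * (τ ^ 2 * W ^ 2 * β * Q)) ≤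
        (12 * (n : ℝ) ^ 4 + 17 * (n : ℝ) ^ 3) * (ε * (kK n * N)) :=
      mul_le_mul_of_nonneg_left r5 (by positivity)
    have a2 : 2 * (n : ℝ) ^ 3 * (ε * (τ ^ 2 * W * β * G)) ≤ 2 * (n : ℝ) ^ 3 * (ε * (kK n * N)) :=
      mul_le_mul_of_nonneg_left r6 (by positivity)
    have a3 : 3 * (n : ℝ) ^ 3 * (τ * η * (τ * W * β * Q)) ≤ 3 * (n : ℝ) ^ 3 * (ε * (kK n * N)) :=
      mul_le_mul_of_nonneg_left r7 (by positivity)
    calc 8 * τ ^ 2 * (β * ((12 * (n : ℝ) ^ 4 + 17 * (n : ℝ) ^ 3) * (ε * W ^ 2 * Q) +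
      2 * (n : ℝ) ^ 3 * (ε * W * G) + 3 * (n : ℝ) ^ 3 * (η * W * Q))) =
        8 * ((12 * (n : ℝ) ^ 4 + 17 * (n : ℝ) ^ 3) * (ε * (τ ^ 2 * W ^ 2 * β * Q)) +
          2 * (n : ℝ) ^ 3 * (ε * (τ ^ 2 * W * β * G)) +
          3 * (n : ℝ) ^ 3 * (τ * η * (τ * W * β * Q))) := by ring
      _ ≤ 8 * ((12 * (n : ℝ) ^ 4 + 17 * (n : ℝ) ^ 3) * (ε * (kK n * N)) +
          2 * (n : ℝ) ^ 3 * (ε * (kK n * N)) + 3 * (n : ℝ) ^ 3 * (ε * (kK n * N))) := by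
        linarith
      _ = _ := by ring
  have v6 : cD n C₀ * (ε * (τ * u) + ε * (τ ^ 2 * W * u) + ε * (τ * u ^ 2) +
      ε * (τ ^ 3 * W ^ 3) + ε * (τ ^ 2 * u * W ^ 2)) * (β * γ) ≤
      5 * cD n C₀ * (ε * (kK n * N)) := by
    have a1 : ε * (τ * u * β * γ) + ε * (τ ^ 2 * W * u * β * γ) + ε * (τ * u ^ 2 * β * γ) +
        ε * (τ ^ 3 * W ^ 3 * β * γ) + ε * (τ ^ 2 * u * W ^ 2 * β * γ) ≤
        5 * (ε * (kK n * N)) := by linarith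
    have a2 := mul_le_mul_of_nonneg_left a1 hcD
    calc cD n C₀ * (ε * (τ * u) + ε * (τ ^ 2 * W * u) + ε * (τ * u ^ 2) +
      ε * (τ ^ 3 * W ^ 3) + ε * (τ ^ 2 * u * W ^ 2)) * (β * γ) =
        cD n C₀ * (ε * (τ * u * β * γ) + ε * (τ ^ 2 * W * u * β * γ) +
          ε * (τ * u ^ 2 * β * γ) + ε * (τ ^ 3 * W ^ 3 * β * γ) +
          ε * (τ ^ 2 * u * W ^ 2 * β * γ)) := by ring
      _ ≤ _ := a2
      _ = _ := by ring
  have w0 : 0 ≤ kK n * N := mul_nonneg hK hN0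
  have w1 : ε * (kK n * N) ≤ (ε + 1 / √τ) * (kK n * N) :=
    mul_le_mul_of_nonneg_right (by have : 0 ≤ 1 / √τ := by positivity
                                   linarith) w0
  have w2 : 1 / √τ * (kK n * N) ≤ (ε + 1 / √τ) * (kK n * N) :=
    mul_le_mul_of_nonneg_right (by linarith) w0
  have hA : 0 ≤ (8 * (n : ℝ) ^ 2 * (n + 1) +
      2 * (12 * (n : ℝ) ^ 2 * (4 * n + 1) + 4 * cE n)) +
      4 * (n : ℝ) ^ 2 * (4 * n + 10) * (5 * n + 2) + 8 * ((12 * (n : ℝ) ^ 4 +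
      17 * (n : ℝ) ^ 3) + 2 * (n : ℝ) ^ 3 + 3 * (n : ℝ) ^ 3) + 5 * cD n C₀ := by positivity
  have w3 := mul_le_mul_of_nonneg_left w1 hA
  have w4 : 16 * (n : ℝ) ^ 2 * (1 / √τ * (kK n * N)) ≤
      16 * (n : ℝ) ^ 2 * ((ε + 1 / √τ) * (kK n * N)) :=
    mul_le_mul_of_nonneg_left w2 (by positivity)
  have w5 : 0 ≤ (ε + 1 / √τ) * N := by positivity
  have e : cR n C₀ * (ε + 1 / √τ) * N = ((8 * (n : ℝ) ^ 2 * (n + 1) +
      2 * (12 * (n : ℝ) ^ 2 * (4 * n + 1) + 4 * cE n)) +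
      4 * (n : ℝ) ^ 2 * (4 * n + 10) * (5 * n + 2) + 8 * ((12 * (n : ℝ) ^ 4 +
      17 * (n : ℝ) ^ 3) + 2 * (n : ℝ) ^ 3 + 3 * (n : ℝ) ^ 3) + 5 * cD n C₀) *
      ((ε + 1 / √τ) * (kK n * N)) + 16 * (n : ℝ) ^ 2 * ((ε + 1 / √τ) * (kK n * N)) +
      (ε + 1 / √τ) * N := by
    unfold cR; ring
  rw [e]
  linarith

end bound

end EQX

open EQX

/-- (EQX) -/
theorem rowEQX : RowEBD → RowEQX := by
  intro hE n
  obtain ⟨C₀, hC₀, hB⟩ := hE n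
  refine ⟨cR n C₀, cR_pos n hC₀.le, ?_⟩
  intro ε η s₁ s₂ h0 hε h1 h2 hd τ hτ hη b c hb hc
  have key : ∀ z ∈ Un n, |RR s₁ s₂ τ b c z| ≤
      cR n C₀ * (ε + 1 / √τ) * (Nb τ b z + Nc τ c z) := by
    intro z hz
    obtain ⟨_, _, _, hk1, hk2, _, hl1, hl2, _, _, hg1, hg2⟩ := hB ε s₁ s₂ h0 hε h1 h2 z hz
    exact abs_RR h1 h2 hd h0 hε hC₀.le hz hk1 hk2 hl1 hl2 hg1 hg2 hτ hη hb.su hc.su
  have t1 := tf_RR h1.sm h2.sm τ hb hc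
  have t2 : TF (Un n) (fun z => Nb τ b z + Nc τ c z) := (tf_Nb τ hb).add (tf_Nc τ hc)
  have t3 := t2.const_mul (cR n C₀ * (ε + 1 / √τ))
  have e1 : EE (fun z => cR n C₀ * (ε + 1 / √τ) * (Nb τ b z + Nc τ c z)) =
      cR n C₀ * (ε + 1 / √τ) * (EE (Nb τ b) + EE (Nc τ c)) := by
    rw [EE_const_mul, EE_add (tf_Nb τ hb) (tf_Nc τ hc)]
  rw [← EE_RR h1.td h2.td τ hb hc, ← e1, abs_le]
  constructor
  · have := EE_mono t3.neg t1 fun z hz => (abs_le.1 (key z hz)).1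
    rwa [EE_neg] at this
  · exact EE_mono t1 t3 fun z hz => (abs_le.1 (key z hz)).2

end Vale.Agent.P088.HY
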