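import Vale.Agent.P088.R2.H558.E4

/-!
# P088, an abstract frame and the formula for `Γ(b,Γ(u,c)) + Γ(c,Γ(u,b)) - Γ(u,Γ(b,c))`
-/

open MeasureTheory Set Filter
open scoped ContDiff Matrix Topology

noncomputable section

namespace Vale.Agent.P088.HY.EQX

open Vale.Agent.P088.LR

variable {n : ℕ}

/-- The rules for the frames `A_i` and `B_i`. -/
structure Fr (D : Fin n → (VV n → ℝ) → VV n → ℝ) (ξ : Fin n → VV n → ℝ) : Prop where
  su : ∀ i f, SU f → SU (D i f)
  add : ∀ i f g z, SU f → SU g → z ∈ Un n → D i (fun z => f z + g z) z = D i f z + D i g z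
  mul : ∀ i f g z, SU f → SU g → z ∈ Un n →
    D i (fun z => f z * g z) z = D i f z * g z + f z * D i g z
  sum : ∀ i (t : Finset (Fin n)) (F : Fin n → VV n → ℝ) z, (∀ j, SU (F j)) → z ∈ Un n →
    D i (fun z => ∑ j ∈ t, F j z) z = ∑ j ∈ t, D i (F j) z
  comm : ∀ i j f z, SU f → z ∈ Un n →
    D i (D j f) z = D j (D i f) z + ξ j z * D i f z - ξ i z * D j f z
  hess : ∀ i j z, z ∈ Un n →
    D i (D j uu) z = kd i j * (uu z - ∑ k, ξ k z * D k uu z) + ξ j z * D i uu z

lemma fr_x : Fr (n := n) Ax (fun i z => z.1 i) where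
  su := fun i _ hf => su_Ax hf i
  add := fun i _ _ _ hf hg hz => by rw [Ax_eq]; exact Dr_add hf hg hz
  mul := fun i _ _ _ hf hg hz => by rw [Ax_eq]; exact Dr_mul hf hg hz
  sum := fun i t F _ hF hz => by rw [Ax_eq]; exact Dr_sum t hF hz
  comm := fun i j _ _ hf hz => Ax_comm hf hz i j
  hess := fun i j _ hz => Ax_al hz i j

lemma fr_y : Fr (n := n) By (fun i z => z.2 i) where
  su := fun i _ hf => su_By hf i
  add := fun i _ _ _ hf hg hz => by rw [By_eq]; exact Dr_add hf hg hz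
  mul := fun i _ _ _ hf hg hz => by rw [By_eq]; exact Dr_mul hf hg hz
  sum := fun i t F _ hF hz => by rw [By_eq]; exact Dr_sum t hF hz
  comm := fun i j _ _ hf hz => By_comm hf hz i j
  hess := fun i j _ hz => By_be hz i j

/-- `∑ σ_ij D_i f D_j h`. -/
def Gam (D : Fin n → (VV n → ℝ) → VV n → ℝ) (σ : Fin n → Fin n → VV n → ℝ) (f h : VV n → ℝ)
    (z : VV n) : ℝ := ∑ i, ∑ j, σ i j z * D i f z * D j h z

lemma su_sum {F : Fin n → VV n → ℝ} (h : ∀ j, SU (F j)) : SU (fun z => ∑ j, F j z) :=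
  ContDiffOn.sum fun j _ => h j

section

variable {D : Fin n → (VV n → ℝ) → VV n → ℝ} {ξ : Fin n → VV n → ℝ}
  {σ : Fin n → Fin n → VV n → ℝ}

lemma su_Gam (hD : Fr D ξ) (hσ : ∀ i j, SU (σ i j)) {f h : VV n → ℝ} (hf : SU f) (hh : SU h) :
    SU (Gam D σ f h) :=
  su_sum fun i => su_sum fun j => ((hσ i j).mul (hD.su i f hf)).mul (hD.su j h hh)

/-- The derivative of `Γ(f, h)`. -/
lemma D_Gam (hD : Fr D ξ) (hσ : ∀ i j, SU (σ i j)) {f h : VV n → ℝ} (hf : SU f) (hh : SU h)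
    {z : VV n} (hz : z ∈ Un n) (j : Fin n) :
    D j (Gam D σ f h) z = ∑ k, ∑ l, (D j (σ k l) z * D k f z * D l h z +
      σ k l z * D j (D k f) z * D l h z + σ k l z * D k f z * D j (D l h) z) := by
  have h1 : ∀ k l, SU (fun z => σ k l z * D k f z * D l h z) := fun k l =>
    ((hσ k l).mul (hD.su k f hf)).mul (hD.su l h hh)
  have h2 : D j (Gam D σ f h) z = D j (fun z => ∑ k, ∑ l, σ k l z * D k f z * D l h z) z := rfl
  rw [h2, hD.sum j Finset.univ (fun k z => ∑ l, σ k l z * D k f z * D l h z) z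
    (fun k => su_sum (h1 k)) hz]
  refine Finset.sum_congr rfl fun k _ => ?_
  rw [hD.sum j Finset.univ (fun l z => σ k l z * D k f z * D l h z) z (h1 k) hz]
  refine Finset.sum_congr rfl fun l _ => ?_
  rw [hD.mul j (fun z => σ k l z * D k f z) (D l h) z ((hσ k l).mul (hD.su k f hf))
    (hD.su l h hh) hz, hD.mul j (σ k l) (D k f) z (hσ k l) (hD.su k f hf) hz]
  ring

end

/-! ### Finite sums -/

/-- The algebra behind the formula. -/
lemma gam_alg (σ : Fin n → Fin n → ℝ) (hσ : ∀ i j, σ i j = σ j i) (d : Fin n → Fin n → Fin n → ℝ)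
    (P Q a x : Fin n → ℝ) (U : ℝ) (Hu Hb Hc : Fin n → Fin n → ℝ)
    (hu : ∀ i j, Hu i j = kd i j * U + x j * a i)
    (hb : ∀ i j, Hb i j = Hb j i + x j * P i - x i * P j)
    (hc : ∀ i j, Hc i j = Hc j i + x j * Q i - x i * Q j) :
    ∑ i, ∑ j, σ i j * P i * (∑ k, ∑ l, (d j k l * a k * Q l + σ k l * Hu j k * Q l +
        σ k l * a k * Hc j l)) +
      ∑ i, ∑ j, σ i j * Q i * (∑ k, ∑ l, (d j k l * a k * P l + σ k l * Hu j k * P l +
        σ k l * a k * Hb j l)) -
      ∑ i, ∑ j, σ i j * a i * (∑ k, ∑ l, (d j k l * P k * Q l + σ k l * Hb j k * Q l +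
        σ k l * P k * Hc j l)) =
    2 * U * ∑ j, (∑ i, σ i j * P i) * (∑ i, σ i j * Q i) +
      2 * (∑ i, ∑ j, σ i j * x i * a j) * (∑ i, ∑ j, σ i j * P i * Q j) +
      (∑ i, ∑ j, ∑ k, ∑ l, σ i j * P i * d j k l * a k * Q l +
        ∑ i, ∑ j, ∑ k, ∑ l, σ i j * Q i * d j k l * a k * P l -
        ∑ i, ∑ j, ∑ k, ∑ l, σ i j * a i * d j k l * P k * Q l) := by
  set p : Fin n → ℝ := fun j => ∑ i, σ i j * P i with hp
  set q : Fin n → ℝ := fun j => ∑ i, σ i j * Q i with hq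
  set s : Fin n → ℝ := fun j => ∑ i, σ i j * a i with hs
  have e0 : ∀ (v : Fin n → ℝ) (X : Fin n → ℝ), ∑ i, ∑ j, σ i j * v i * X j =
      ∑ j, (∑ i, σ i j * v i) * X j := by
    intro v X
    rw [Finset.sum_comm]
    refine Finset.sum_congr rfl fun j _ => ?_
    rw [Finset.sum_mul]
  have e1 : ∀ (v : Fin n → ℝ) (j : Fin n), ∑ l, σ j l * v l = ∑ i, σ i j * v i := by
    intro v j
    refine Finset.sum_congr rfl fun i _ => ?_
    rw [hσ j i]
  have s1 : ∀ (v w : Fin n → ℝ) (j : Fin n), ∑ k, ∑ l, (d j k l * v k * w l) =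
      ∑ k, ∑ l, d j k l * v k * w l := fun _ _ _ => rfl
  -- split
  have f1 : ∀ (v w : Fin n → ℝ) (K L : Fin n → Fin n → ℝ) (t : Fin n → ℝ),
      ∑ i, ∑ j, σ i j * t i * (∑ k, ∑ l, (d j k l * v k * w l + σ k l * K j k * w l +
        σ k l * v k * L j l)) =
      ∑ i, ∑ j, ∑ k, ∑ l, σ i j * t i * d j k l * v k * w l +
      ∑ j, (∑ i, σ i j * t i) * ∑ k, K j k * (∑ i, σ i k * w i) +
      ∑ j, (∑ i, σ i j * t i) * ∑ l, (∑ i, σ i l * v i) * L j l := by
    intro v w K L t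
    have g1 : ∀ j, ∑ k, ∑ l, (d j k l * v k * w l + σ k l * K j k * w l +
        σ k l * v k * L j l) = ∑ k, ∑ l, d j k l * v k * w l +
        ∑ k, K j k * (∑ i, σ i k * w i) + ∑ l, (∑ i, σ i l * v i) * L j l := by
      intro j
      simp only [Finset.sum_add_distrib]
      congr 1
      · congr 1
        refine Finset.sum_congr rfl fun k _ => ?_
        rw [← e1 w k, Finset.mul_sum]
        refine Finset.sum_congr rfl fun l _ => ?_
        ring
      · rw [Finset.sum_comm]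
        refine Finset.sum_congr rfl fun l _ => ?_
        rw [Finset.sum_mul]
    simp_rw [g1]
    simp only [mul_add, Finset.sum_add_distrib]
    congr 1
    · congr 1
      · refine Finset.sum_congr rfl fun i _ => Finset.sum_congr rfl fun j _ => ?_
        rw [Finset.mul_sum]
        refine Finset.sum_congr rfl fun k _ => ?_
        rw [Finset.mul_sum]
        refine Finset.sum_congr rfl fun l _ => ?_
        ring
      · exact e0 _ _
    · exact e0 _ _
  rw [f1 a Q Hu Hc P, f1 a P Hu Hb Q, f1 P Q Hb Hc a]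
  -- the Hessian of `u`
  have k1 : ∀ (v w : Fin n → ℝ), ∑ j, v j * ∑ k, Hu j k * w k =
      U * ∑ j, v j * w j + (∑ j, v j * a j) * ∑ k, x k * w k := by
    intro v w
    have g : ∀ j, v j * ∑ k, Hu j k * w k = U * (v j * w j) + (v j * a j) * ∑ k, x k * w k := by
      intro j
      have g2 : ∑ k, Hu j k * w k = U * w j + a j * ∑ k, x k * w k := by
        have g3 : ∀ k, Hu j k * w k = U * (kd j k * w k) + a j * (x k * w k) := by
          intro k; rw [hu]; ring
        simp only [g3, Finset.sum_add_distrib, ← Finset.mul_sum]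
        rw [sum_kd j w]
      rw [g2]; ring
    simp only [g, Finset.sum_add_distrib, ← Finset.mul_sum, ← Finset.sum_mul]
  -- the commutators
  have k2 : ∀ (v w X : Fin n → ℝ) (H : Fin n → Fin n → ℝ),
      (∀ i j, H i j = H j i + x j * X i - x i * X j) →
      ∑ j, v j * ∑ l, w l * H j l - ∑ j, w j * ∑ l, v l * H j l =
        (∑ j, v j * X j) * (∑ l, x l * w l) - (∑ j, x j * v j) * (∑ l, w l * X l) := by
    intro v w X H hH
    have g1 : ∑ j, w j * ∑ l, v l * H j l = ∑ j, ∑ l, v j * w l * H l j := by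
      simp only [Finset.mul_sum]
      rw [Finset.sum_comm]
      refine Finset.sum_congr rfl fun j _ => Finset.sum_congr rfl fun l _ => ?_
      ring
    have g2 : ∑ j, v j * ∑ l, w l * H j l = ∑ j, ∑ l, v j * w l * H j l := by
      simp only [Finset.mul_sum]
      refine Finset.sum_congr rfl fun j _ => Finset.sum_congr rfl fun l _ => ?_
      ring
    rw [g1, g2, ← Finset.sum_sub_distrib]
    simp only [← Finset.sum_sub_distrib]
    rw [Finset.sum_mul_sum, Finset.sum_mul_sum, ← Finset.sum_sub_distrib]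
    refine Finset.sum_congr rfl fun j _ => ?_
    rw [← Finset.sum_sub_distrib]
    refine Finset.sum_congr rfl fun l _ => ?_
    rw [hH j l]
    ring
  have c1 := k2 p s Q Hc hc
  have c2 := k2 q s P Hb hb
  have c3 : ∑ j, s j * ∑ k, Hb j k * q k = ∑ j, s j * ∑ k, q k * Hb j k := by
    refine Finset.sum_congr rfl fun j _ => ?_
    congr 1
    exact Finset.sum_congr rfl fun k _ => mul_comm _ _
  have t1 := k1 p q
  have t3 := k1 q p
  -- symmetric pairings
  have m1 : ∀ (v w : Fin n → ℝ), ∑ j, (∑ i, σ i j * v i) * w j =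
      ∑ j, v j * ∑ i, σ i j * w i := by
    intro v w
    simp only [Finset.sum_mul, Finset.mul_sum]
    rw [Finset.sum_comm]
    refine Finset.sum_congr rfl fun i _ => Finset.sum_congr rfl fun j _ => ?_
    rw [hσ i j]
    ring
  have m2 : ∑ i, ∑ j, σ i j * x i * a j = ∑ l, x l * s l := by
    rw [e0 x a, m1 x a]
  have m3 : ∑ i, ∑ j, σ i j * P i * Q j = ∑ j, p j * Q j := e0 P Q
  have m4 : ∑ j, q j * P j = ∑ j, p j * Q j := by
    have h1 : ∑ j, q j * P j = ∑ j, Q j * p j := m1 Q P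
    rw [h1]
    exact Finset.sum_congr rfl fun j _ => mul_comm _ _
  have m5 : ∑ l, s l * Q l = ∑ j, q j * a j := by
    have h1 : ∑ j, s j * Q j = ∑ j, a j * q j := m1 a Q
    rw [h1]
    exact Finset.sum_congr rfl fun j _ => mul_comm _ _
  have m6 : ∑ l, s l * P l = ∑ j, p j * a j := by
    have h1 : ∑ j, s j * P j = ∑ j, a j * p j := m1 a P
    rw [h1]
    exact Finset.sum_congr rfl fun j _ => mul_comm _ _
  have m7 : ∑ j, q j * p j = ∑ j, p j * q j :=
    Finset.sum_congr rfl fun j _ => mul_comm _ _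
  rw [m5] at c1
  rw [m4, m6] at c2
  rw [m2, m3, c3, t1, t3, m7]
  linear_combination c1 + c2

/-- The terms with derivatives of `σ`. -/
def dsT (D : Fin n → (VV n → ℝ) → VV n → ℝ) (σ : Fin n → Fin n → VV n → ℝ) (b c : VV n → ℝ)
    (z : VV n) : ℝ :=
  ∑ i, ∑ j, ∑ k, ∑ l, σ i j z * D i b z * D j (σ k l) z * D k uu z * D l c z +
    ∑ i, ∑ j, ∑ k, ∑ l, σ i j z * D i c z * D j (σ k l) z * D k uu z * D l b z -
    ∑ i, ∑ j, ∑ k, ∑ l, σ i j z * D i uu z * D j (σ k l) z * D k b z * D l c z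

/-- The polarised formula. -/
lemma Gam_formula {D : Fin n → (VV n → ℝ) → VV n → ℝ} {ξ : Fin n → VV n → ℝ}
    {σ : Fin n → Fin n → VV n → ℝ} (hD : Fr D ξ) (hσ : ∀ i j, SU (σ i j))
    (hs : ∀ i j z, σ i j z = σ j i z) {b c : VV n → ℝ} (hb : SU b) (hc : SU c) {z : VV n}
    (hz : z ∈ Un n) :
    Gam D σ b (Gam D σ uu c) z + Gam D σ c (Gam D σ uu b) z - Gam D σ uu (Gam D σ b c) z =
      2 * (uu z - ∑ k, ξ k z * D k uu z) *
          ∑ j, (∑ i, σ i j z * D i b z) * (∑ i, σ i j z * D i c z) +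
        2 * (∑ i, ∑ j, σ i j z * ξ i z * D j uu z) * Gam D σ b c z + dsT D σ b c z := by
  have h1 : ∀ (f g h : VV n → ℝ), SU f → SU g → SU h → Gam D σ f (Gam D σ g h) z =
      ∑ i, ∑ j, σ i j z * D i f z * (∑ k, ∑ l, (D j (σ k l) z * D k g z * D l h z +
        σ k l z * D j (D k g) z * D l h z + σ k l z * D k g z * D j (D l h) z)) := by
    intro f g h hf hg hh
    show ∑ i, ∑ j, σ i j z * D i f z * D j (Gam D σ g h) z = _
    refine Finset.sum_congr rfl fun i _ => Finset.sum_congr rfl fun j _ => ?_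
    rw [D_Gam hD hσ hg hh hz]
  rw [h1 b uu c hb su_uu hc, h1 c uu b hc su_uu hb, h1 uu b c su_uu hb hc]
  exact gam_alg (fun i j => σ i j z) (fun i j => hs i j z) (fun j k l => D j (σ k l) z)
    (fun i => D i b z) (fun i => D i c z) (fun i => D i uu z) (fun i => ξ i z)
    (uu z - ∑ k, ξ k z * D k uu z) (fun i j => D i (D j uu) z) (fun i j => D i (D j b) z)
    (fun i j => D i (D j c) z) (fun i j => hD.hess i j z hz) (fun i j => hD.comm i j b z hb hz)
    (fun i j => hD.comm i j c z hc hz)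

end Vale.Agent.P088.HY.EQX
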