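import Vale.Agent.P088.R2.H87.X1
import Vale.Agent.P088.R2.H724.Geo2

/-!
# P088, bounds at a point: entries of `s`, `α`, `β`, `m`, the diagonal lemma
-/

open MeasureTheory Set Filter
open scoped ContDiff Matrix Topology

noncomputable section

namespace Vale.Agent.P088.HY.EQX

open Vale.Agent.P088.LR

variable {n : ℕ}

/-- `√(u² - 1)`. -/
def ww (z : VV n) : ℝ := √(uu z ^ 2 - 1)

section geo

variable {z : VV n}

lemma ww_nonneg : 0 ≤ ww z := Real.sqrt_nonneg _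

lemma ww_sq (hz : z ∈ Un n) : ww z ^ 2 = uu z ^ 2 - 1 :=
  Real.sq_sqrt (by nlinarith [one_le_uu hz])

lemma ww_le (hz : z ∈ Un n) : ww z ≤ uu z :=
  abs_le_of_sq_le_sq' (by rw [ww_sq hz]; linarith) (by linarith [one_le_uu hz]) |>.2

lemma um_le (hz : z ∈ Un n) : uu z - 1 ≤ ww z := by
  have hu := one_le_uu hz
  exact abs_le_of_sq_le_sq' (by rw [ww_sq hz]; nlinarith) ww_nonneg |>.2

lemma uum_le (hz : z ∈ Un n) : uu z * (uu z - 1) ≤ ww z ^ 2 := by
  have hu := one_le_uu hz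
  rw [ww_sq hz]; nlinarith

lemma ups (hz : z ∈ Un n) : uu z * ps z = ww z ^ 2 := by
  have hu := one_le_uu hz
  have h0 : uu z ≠ 0 := by linarith
  rw [ww_sq hz]
  unfold ps
  field_simp

lemma ps_nonneg (hz : z ∈ Un n) : 0 ≤ ps z := by
  have hu := one_le_uu hz
  have h := ups hz
  by_contra hc
  push Not at hc
  nlinarith [sq_nonneg (ww z)]

lemma ps_le (hz : z ∈ Un n) : ps z ≤ uu z := by
  have hu := one_le_uu hz
  have : 0 < (uu z)⁻¹ := inv_pos.2 (by linarith)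
  unfold ps; linarith

lemma u_le_ps (hz : z ∈ Un n) : uu z ≤ 1 + ps z := by
  have hu := one_le_uu hz
  have : (uu z)⁻¹ ≤ 1 := inv_le_one_of_one_le₀ hu
  unfold ps; linarith

lemma ps_ge (hz : z ∈ Un n) (h2 : 2 ≤ uu z) : 3 / 4 * uu z ≤ ps z := by
  have h := ups hz
  rw [ww_sq hz] at h
  have h0 : 0 < uu z := by linarith
  refine le_of_mul_le_mul_left ?_ h0
  rw [h]; nlinarith

lemma abs_al (hz : z ∈ Un n) (i : Fin n) : |al i z| ≤ ww z :=
  abs_le_of_sq_le_sq (by rw [ww_sq hz]; exact al_sq_le hz i) ww_nonneg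

lemma abs_be (hz : z ∈ Un n) (i : Fin n) : |be i z| ≤ ww z :=
  abs_le_of_sq_le_sq (by rw [ww_sq hz]; exact be_sq_le hz i) ww_nonneg

lemma u_albe (hz : z ∈ Un n) (i : Fin n) : uu z * |al i z + be i z| ≤ 4 * ww z ^ 2 := by
  have h := abs_al_add_be hz i
  have hu := one_le_uu hz
  have h2 := uum_le hz
  have h3 : uu z * |al i z + be i z| ≤ uu z * (4 * (uu z - 1)) :=
    mul_le_mul_of_nonneg_left h (by linarith)
  linarith

lemma abs_albe (hz : z ∈ Un n) (i : Fin n) : |al i z + be i z| ≤ 4 * ww z ^ 2 := by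
  have h := u_albe hz i
  have hu := one_le_uu hz
  have h3 := abs_nonneg (al i z + be i z)
  nlinarith

lemma abs_kd (i j : Fin n) : |kd i j| ≤ 1 := by
  unfold kd; split_ifs <;> simp

lemma abs_mm (hz : z ∈ Un n) (i j : Fin n) : |mm i j z + kd i j| ≤ 3 * ww z := by
  have hx := abs_x_le hz i
  have hy := abs_y_le hz j
  have ha := abs_al hz i
  have hb := abs_be hz j
  have hu := one_le_uu hz
  have hm := um_le hz
  have hw := ww_nonneg (z := z)
  have e : mm i j z + kd i j = z.1 i * be j z + z.2 j * al i z - (uu z - 1) * z.1 i * z.2 j := by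
    rw [mm_eq hz]; ring
  rw [e]
  have t1 : |z.1 i * be j z| ≤ 1 * ww z := by
    rw [abs_mul]; exact mul_le_mul hx hb (abs_nonneg _) zero_le_one
  have t2 : |z.2 j * al i z| ≤ 1 * ww z := by
    rw [abs_mul]; exact mul_le_mul hy ha (abs_nonneg _) zero_le_one
  have t3 : |(uu z - 1) * z.1 i * z.2 j| ≤ (ww z * 1) * 1 := by
    rw [abs_mul, abs_mul, abs_of_nonneg (by linarith : 0 ≤ uu z - 1)]
    exact mul_le_mul (mul_le_mul hm hx (abs_nonneg _) hw) hy (abs_nonneg _) (by positivity)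
  have t4 := abs_sub (z.1 i * be j z + z.2 j * al i z) ((uu z - 1) * z.1 i * z.2 j)
  have t5 := abs_add_le (z.1 i * be j z) (z.2 j * al i z)
  linarith

lemma u_dist (hz : z ∈ Un n) : uu z * ‖z.1 - z.2‖ ≤ 3 * ww z := by
  have hu := one_le_uu hz
  have hw := ww_nonneg (z := z)
  have hr1 := r1_pos hz
  have hr2 := r2_pos hz
  have h1 : ∀ i, uu z * |z.1 i - z.2 i| ≤ 3 * ww z := by
    intro i
    have hi : (z.1 i - z.2 i) ^ 2 ≤ qq z :=
      Finset.single_le_sum (f := fun i => (z.1 i - z.2 i) ^ 2) (fun j _ => sq_nonneg _)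
        (Finset.mem_univ i)
    have hq := qq_eq hz
    have h4 : qq z ≤ 4 := by
      have h5 : qq z ≤ 2 * ∑ i, z.1 i * z.1 i + 2 * ∑ i, z.2 i * z.2 i := by
        show ∑ i, (z.1 i - z.2 i) ^ 2 ≤ _
        rw [Finset.mul_sum, Finset.mul_sum, ← Finset.sum_add_distrib]
        refine Finset.sum_le_sum fun i _ => ?_
        nlinarith [sq_nonneg (z.1 i + z.2 i)]
      rw [sum_xx, sum_yy] at h5
      linarith
    have h6 : 2 * r1 z * r2 z * uu z ≤ 9 / 2 := by
      have e : 2 * r1 z * r2 z * uu z = 2 * r1 z * r2 z + qq z := by rw [hq]; ring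
      have e1 : r1 z ≤ 1 / 2 := rr_le _
      have e2 : r2 z ≤ 1 / 2 := rr_le _
      rw [e]; nlinarith
    have h7 : uu z ^ 2 * qq z ≤ 9 / 2 * ww z ^ 2 := by
      have e : uu z ^ 2 * qq z = (2 * r1 z * r2 z * uu z) * (uu z * (uu z - 1)) := by
        rw [hq]; ring
      rw [e]
      have h8 := uum_le hz
      have h9 : 0 ≤ uu z * (uu z - 1) := mul_nonneg (by linarith) (by linarith)
      nlinarith [mul_le_mul_of_nonneg_right h6 h9]
    have h8 : (uu z * |z.1 i - z.2 i|) ^ 2 ≤ (3 * ww z) ^ 2 := by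
      rw [mul_pow, sq_abs]
      have h9 : uu z ^ 2 * (z.1 i - z.2 i) ^ 2 ≤ uu z ^ 2 * qq z :=
        mul_le_mul_of_nonneg_left hi (sq_nonneg _)
      nlinarith [sq_nonneg (ww z)]
    exact abs_le_of_sq_le_sq' h8 (by positivity) |>.2
  have h0 : 0 < uu z := by linarith
  rw [mul_comm, ← le_div_iff₀ h0]
  refine (pi_norm_le_iff_of_nonneg (by positivity)).2 fun i => ?_
  rw [le_div_iff₀ h0, mul_comm]
  exact h1 i

end geo

/-! ### The tensors -/

section tensor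

variable {ε η : ℝ} {s s₁ s₂ : MF n}

lemma ts_nonneg [Nonempty (Fin n)] (h : TS n 3 ε s) : 0 ≤ ε := by
  have i : Fin n := Classical.arbitrary _
  exact (norm_nonneg _).trans (h.cl i i 0 (by norm_num) 0)

lemma ts_symm (h : TS n 3 ε s) (x : V n) (i j : Fin n) : s x i j = s x j i :=
  (h.sy x).apply j i

lemma one_kd (i j : Fin n) : (1 : Matrix (Fin n) (Fin n) ℝ) i j = kd i j := by
  unfold kd
  rw [Matrix.one_apply]

lemma ts_0 (h : TS n 3 ε s) (x : V n) (i j : Fin n) : |s x i j - kd i j| ≤ ε := by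
  have h1 := h.cl i j 0 (by norm_num) x
  rw [norm_iteratedFDeriv_zero, one_kd] at h1
  exact h1

lemma ts_fd (h : TS n 3 ε s) (x : V n) (i j : Fin n) :
    ‖fderiv ℝ (fun x => s x i j) x‖ ≤ ε := by
  have h1 := h.cl i j 1 (by norm_num) x
  rw [norm_iteratedFDeriv_one] at h1
  have h2 : fderiv ℝ (fun x => s x i j - (1 : Matrix (Fin n) (Fin n) ℝ) i j) x =
      fderiv ℝ (fun x => s x i j) x := by
    rw [fderiv_sub_const]
  rwa [h2] at h1

lemma ts_1 (h : TS n 3 ε s) (x : V n) (i j k : Fin n) : |pd k (fun x => s x i j) x| ≤ ε := by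
  have h1 := ts_fd h x i j
  have h2 := (fderiv ℝ (fun x => s x i j) x).le_opNorm (Pi.single k 1)
  have h3 : ‖(Pi.single k (1 : ℝ) : V n)‖ = 1 := by rw [Pi.norm_single, norm_one]
  rw [h3, mul_one] at h2
  exact h2.trans h1

lemma ts_lip (h : TS n 3 ε s) (x y : V n) (i j : Fin n) :
    |s x i j - s y i j| ≤ ε * ‖x - y‖ := by
  have h1 := Convex.norm_image_sub_le_of_norm_fderiv_le (𝕜 := ℝ) (f := fun x => s x i j)
    (s := Set.univ) (x := y) (y := x) (C := ε)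
    (fun z _ => (h.sm i j).differentiable (by simp) z) (fun z _ => ts_fd h z i j) convex_univ
    (mem_univ _) (mem_univ _)
  exact h1

lemma db_0 (h : DB 3 η s₁ s₂) (x : V n) (i j : Fin n) : |s₁ x i j - s₂ x i j| ≤ η := by
  have h1 := h i j 0 (by norm_num) x
  rwa [norm_iteratedFDeriv_zero] at h1

/-- `u |s₁(x) - s₂(y)| ≤ 3 ε W + η u`. -/
lemma u_diff (h1 : TS n 3 ε s₁) (hd : DB 3 η s₁ s₂) (hε : 0 ≤ ε) {z : VV n}
    (hz : z ∈ Un n) (i j : Fin n) :
    uu z * |s₁ z.1 i j - s₂ z.2 i j| ≤ 3 * ε * ww z + η * uu z := by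
  have hu := one_le_uu hz
  have a1 := ts_lip h1 z.1 z.2 i j
  have a2 := db_0 hd z.2 i j
  have a3 := u_dist hz
  have a4 : |s₁ z.1 i j - s₂ z.2 i j| ≤ ε * ‖z.1 - z.2‖ + η := by
    have : s₁ z.1 i j - s₂ z.2 i j = (s₁ z.1 i j - s₁ z.2 i j) + (s₁ z.2 i j - s₂ z.2 i j) := by
      ring
    rw [this]
    exact (abs_add_le _ _).trans (add_le_add a1 a2)
  have a5 := mul_le_mul_of_nonneg_left a4 (by linarith : 0 ≤ uu z)
  have a6 := mul_le_mul_of_nonneg_left a3 hε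
  nlinarith

lemma ts_le2 (h : TS n 3 ε s) (hε : ε ≤ 1) (x : V n) (i j : Fin n) : |s x i j| ≤ 2 := by
  have h1 := ts_0 h x i j
  have h2 := abs_kd i j
  have h3 := abs_add_le (s x i j - kd i j) (kd i j)
  rw [sub_add_cancel] at h3
  linarith

lemma su_s1 (h : TS n 3 ε s) (i j : Fin n) : SU (fun z : VV n => s z.1 i j) :=
  ((h.sm i j).comp contDiff_fst).contDiffOn

lemma su_s2 (h : TS n 3 ε s) (i j : Fin n) : SU (fun z : VV n => s z.2 i j) :=
  ((h.sm i j).comp contDiff_snd).contDiffOn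

lemma Ax_s1 (h : TS n 3 ε s) (hε : 0 ≤ ε) {z : VV n} (hz : z ∈ Un n) (i j k : Fin n) :
    |Ax k (fun z => s z.1 i j) z| ≤ ε := by
  have e : Ax k (fun z => s z.1 i j) z = rr z.1 * pd k (fun x => s x i j) z.1 := by
    unfold Ax
    rw [dx_comp_fst ((h.sm i j).differentiable (by simp) z.1)]
  have h1 := ts_1 h z.1 i j k
  have h2 : rr z.1 ≤ 1 / 2 := rr_le _
  have h3 : 0 < rr z.1 := rr_pos hz.1
  rw [e, abs_mul, abs_of_pos h3]
  nlinarith [abs_nonneg (pd k (fun x => s x i j) z.1)]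

lemma By_s2 (h : TS n 3 ε s) (hε : 0 ≤ ε) {z : VV n} (hz : z ∈ Un n) (i j k : Fin n) :
    |By k (fun z => s z.2 i j) z| ≤ ε := by
  have e : By k (fun z => s z.2 i j) z = rr z.2 * pd k (fun x => s x i j) z.2 := by
    unfold By
    rw [dy_comp_snd ((h.sm i j).differentiable (by simp) z.2)]
  have h1 := ts_1 h z.2 i j k
  have h2 : rr z.2 ≤ 1 / 2 := rr_le _
  have h3 : 0 < rr z.2 := rr_pos hz.2
  rw [e, abs_mul, abs_of_pos h3]
  nlinarith [abs_nonneg (pd k (fun x => s x i j) z.2)]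

lemma By_s1 (s : MF n) (z : VV n) (i j k : Fin n) : By k (fun z => s z.1 i j) z = 0 := by
  unfold By
  rw [dy_comp_fst (fun x => s x i j) z, mul_zero]

lemma Ax_s2 (s : MF n) (z : VV n) (i j k : Fin n) : Ax k (fun z => s z.2 i j) z = 0 := by
  unfold Ax
  rw [dx_comp_snd (fun x => s x i j) z, mul_zero]

end tensor

/-! ### Gradients -/

/-- `|∇f|`. -/
def gr (f : VV n → ℝ) (z : VV n) : ℝ := √(g2 f z)

/-- `|(A + B) f|`. -/
def gp (f : VV n → ℝ) (z : VV n) : ℝ := √(∑ i, (Ax i f z + By i f z) ^ 2)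

lemma g2_nonneg (f : VV n → ℝ) (z : VV n) : 0 ≤ g2 f z :=
  add_nonneg (Finset.sum_nonneg fun _ _ => sq_nonneg _) (Finset.sum_nonneg fun _ _ => sq_nonneg _)

lemma gr_nonneg (f : VV n → ℝ) (z : VV n) : 0 ≤ gr f z := Real.sqrt_nonneg _

lemma gp_nonneg (f : VV n → ℝ) (z : VV n) : 0 ≤ gp f z := Real.sqrt_nonneg _

lemma gr_sq (f : VV n → ℝ) (z : VV n) : gr f z ^ 2 = g2 f z := Real.sq_sqrt (g2_nonneg f z)

lemma gp_sq (f : VV n → ℝ) (z : VV n) : gp f z ^ 2 = ∑ i, (Ax i f z + By i f z) ^ 2 :=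
  Real.sq_sqrt (Finset.sum_nonneg fun _ _ => sq_nonneg _)

lemma abs_Ax (f : VV n → ℝ) (z : VV n) (i : Fin n) : |Ax i f z| ≤ gr f z := by
  refine abs_le_of_sq_le_sq ?_ (gr_nonneg f z)
  rw [gr_sq]
  have h1 : Ax i f z ^ 2 ≤ ∑ i, Ax i f z ^ 2 :=
    Finset.single_le_sum (f := fun i => Ax i f z ^ 2) (fun j _ => sq_nonneg _) (Finset.mem_univ i)
  have h2 : 0 ≤ ∑ i, By i f z ^ 2 := Finset.sum_nonneg fun _ _ => sq_nonneg _
  unfold g2; linarith

lemma abs_By (f : VV n → ℝ) (z : VV n) (i : Fin n) : |By i f z| ≤ gr f z := by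
  refine abs_le_of_sq_le_sq ?_ (gr_nonneg f z)
  rw [gr_sq]
  have h1 : By i f z ^ 2 ≤ ∑ i, By i f z ^ 2 :=
    Finset.single_le_sum (f := fun i => By i f z ^ 2) (fun j _ => sq_nonneg _) (Finset.mem_univ i)
  have h2 : 0 ≤ ∑ i, Ax i f z ^ 2 := Finset.sum_nonneg fun _ _ => sq_nonneg _
  unfold g2; linarith

lemma abs_AB (f : VV n → ℝ) (z : VV n) (i : Fin n) : |Ax i f z + By i f z| ≤ gp f z := by
  refine abs_le_of_sq_le_sq ?_ (gp_nonneg f z)
  rw [gp_sq]
  exact Finset.single_le_sum (f := fun i => (Ax i f z + By i f z) ^ 2) (fun j _ => sq_nonneg _)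
    (Finset.mem_univ i)

/-- `u H_- ≥ |u ξ - m η|²`. -/
lemma uHm_ge {z : VV n} (hz : z ∈ Un n) (f : VV n → ℝ) :
    ∑ i, (uu z * Ax i f z - ∑ j, mm i j z * By j f z) ^ 2 ≤ uu z * Hm f z := by
  have h1 := sum_mm_sq' hz (fun j => By j f z)
  have h2 := be_xi_sq hz (fun j => By j f z)
  have h3 : ∑ i, (uu z * Ax i f z - ∑ j, mm i j z * By j f z) ^ 2 =
      uu z ^ 2 * ∑ i, Ax i f z ^ 2 - 2 * uu z * cr f z +
        ∑ i, (∑ j, mm i j z * By j f z) ^ 2 := by
    unfold cr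
    rw [Finset.mul_sum, Finset.mul_sum, ← Finset.sum_sub_distrib, ← Finset.sum_add_distrib]
    refine Finset.sum_congr rfl fun i _ => ?_
    have h4 : ∑ j, Ax i f z * mm i j z * By j f z = Ax i f z * ∑ j, mm i j z * By j f z := by
      rw [Finset.mul_sum]
      exact Finset.sum_congr rfl fun j _ => by ring
    rw [h4]
    ring
  rw [h3, h1]
  have h5 : uu z * Hm f z = uu z ^ 2 * ∑ i, Ax i f z ^ 2 + uu z ^ 2 * ∑ i, By i f z ^ 2 -
      2 * uu z * cr f z := by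
    unfold Hm g2; ring
  rw [h5]
  nlinarith

lemma Hm_nonneg {z : VV n} (hz : z ∈ Un n) (f : VV n → ℝ) : 0 ≤ Hm f z := by
  have h := uHm_ge hz f
  have hu := one_le_uu hz
  have h0 : 0 ≤ ∑ i, (uu z * Ax i f z - ∑ j, mm i j z * By j f z) ^ 2 :=
    Finset.sum_nonneg fun _ _ => sq_nonneg _
  by_contra hc
  push Not at hc
  nlinarith

/-- The diagonal lemma. -/
lemma diag {z : VV n} (hz : z ∈ Un n) (f : VV n → ℝ) :
    uu z * gp f z ^ 2 ≤ 12 * Hm f z + (12 + 108 * (n : ℝ) ^ 2) * (ps z * g2 f z) := by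
  have hu := one_le_uu hz
  have hw := ww_nonneg (z := z)
  have hg := g2_nonneg f z
  have hH := Hm_nonneg hz f
  have hp := ps_nonneg hz
  have hn : (0 : ℝ) ≤ (n : ℝ) ^ 2 := by positivity
  rw [gp_sq]
  rcases le_total (uu z) 2 with h2 | h2
  · have h1 := uHm_ge hz f
    have k1 : ∀ i, (Ax i f z + By i f z) ^ 2 ≤
        3 * (uu z * Ax i f z - ∑ j, mm i j z * By j f z) ^ 2 +
          3 * ((uu z - 1) ^ 2 * Ax i f z ^ 2) + 3 * (n * (9 * ww z ^ 2) * ∑ j, By j f z ^ 2) := by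
      intro i
      have e1 : Ax i f z + By i f z = (uu z * Ax i f z - ∑ j, mm i j z * By j f z) -
          (uu z - 1) * Ax i f z + ∑ j, (mm i j z + kd i j) * By j f z := by
        have : ∑ j, (mm i j z + kd i j) * By j f z =
            ∑ j, mm i j z * By j f z + ∑ j, kd i j * By j f z := by
          rw [← Finset.sum_add_distrib]
          exact Finset.sum_congr rfl fun j _ => by ring
        rw [this, sum_kd i fun j => By j f z]
        ring
      have e2 : (∑ j, (mm i j z + kd i j) * By j f z) ^ 2 ≤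
          n * (9 * ww z ^ 2) * ∑ j, By j f z ^ 2 := by
        refine (cs_sum Finset.univ (fun j => mm i j z + kd i j) (fun j => By j f z)).trans ?_
        refine mul_le_mul_of_nonneg_right ?_ (Finset.sum_nonneg fun _ _ => sq_nonneg _)
        have e3 : ∀ j ∈ Finset.univ, (mm i j z + kd i j) ^ 2 ≤ 9 * ww z ^ 2 := by
          intro j _
          have := abs_mm hz i j
          have h4 := sq_le_sq' (by linarith [neg_abs_le (mm i j z + kd i j)])
            ((le_abs_self _).trans this)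
          nlinarith
        have e4 := Finset.sum_le_card_nsmul Finset.univ (fun j => (mm i j z + kd i j) ^ 2)
          (9 * ww z ^ 2) e3
        simpa using e4
      rw [e1]
      nlinarith [sq_nonneg ((uu z * Ax i f z - ∑ j, mm i j z * By j f z) +
        (uu z - 1) * Ax i f z), sq_nonneg ((uu z * Ax i f z - ∑ j, mm i j z * By j f z) -
        ∑ j, (mm i j z + kd i j) * By j f z), sq_nonneg ((uu z - 1) * Ax i f z +
        ∑ j, (mm i j z + kd i j) * By j f z)]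
    have k2 := Finset.sum_le_sum (s := Finset.univ) fun i _ => k1 i
    simp only [Finset.sum_add_distrib, ← Finset.mul_sum, Finset.sum_const, Finset.card_univ,
      Fintype.card_fin, nsmul_eq_mul] at k2
    have a1 : 0 ≤ ∑ i, Ax i f z ^ 2 := Finset.sum_nonneg fun _ _ => sq_nonneg _
    have b1 : 0 ≤ ∑ i, By i f z ^ 2 := Finset.sum_nonneg fun _ _ => sq_nonneg _
    have k3 : ∑ i, (Ax i f z + By i f z) ^ 2 ≤
        3 * (uu z * Hm f z) + (3 + 27 * (n : ℝ) ^ 2) * (ww z ^ 2 * g2 f z) := by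
      have hm := um_le hz
      have hm2 : (uu z - 1) ^ 2 ≤ ww z ^ 2 := by nlinarith
      have m1 : (uu z - 1) ^ 2 * ∑ i, Ax i f z ^ 2 ≤ ww z ^ 2 * g2 f z := by
        have : (uu z - 1) ^ 2 * ∑ i, Ax i f z ^ 2 ≤ ww z ^ 2 * ∑ i, Ax i f z ^ 2 :=
          mul_le_mul_of_nonneg_right hm2 a1
        have h5 : ww z ^ 2 * ∑ i, Ax i f z ^ 2 ≤ ww z ^ 2 * g2 f z :=
          mul_le_mul_of_nonneg_left (by unfold g2; linarith) (sq_nonneg _)
        linarith
      have m2 : ww z ^ 2 * ∑ i, By i f z ^ 2 ≤ ww z ^ 2 * g2 f z :=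
        mul_le_mul_of_nonneg_left (by unfold g2; linarith) (sq_nonneg _)
      have m3 : (n : ℝ) ^ 2 * (ww z ^ 2 * ∑ i, By i f z ^ 2) ≤
          (n : ℝ) ^ 2 * (ww z ^ 2 * g2 f z) := mul_le_mul_of_nonneg_left m2 hn
      nlinarith
    rw [← ups hz] at k3
    have k4 := mul_le_mul_of_nonneg_left k3 (by linarith : 0 ≤ uu z)
    have hpg : 0 ≤ ps z * g2 f z := mul_nonneg hp hg
    have hu2 : uu z ^ 2 ≤ 4 := by nlinarith
    have k5 : uu z ^ 2 * Hm f z ≤ 4 * Hm f z := mul_le_mul_of_nonneg_right hu2 hH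
    have k6 : uu z ^ 2 * ((3 + 27 * (n : ℝ) ^ 2) * (ps z * g2 f z)) ≤
        4 * ((3 + 27 * (n : ℝ) ^ 2) * (ps z * g2 f z)) :=
      mul_le_mul_of_nonneg_right hu2 (mul_nonneg (by positivity) hpg)
    nlinarith
  · have h3 := ps_ge hz h2
    have k1 : ∑ i, (Ax i f z + By i f z) ^ 2 ≤ 2 * g2 f z := by
      unfold g2
      rw [← Finset.sum_add_distrib, Finset.mul_sum]
      refine Finset.sum_le_sum fun i _ => ?_
      nlinarith [sq_nonneg (Ax i f z - By i f z)]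
    have k2 : uu z * ∑ i, (Ax i f z + By i f z) ^ 2 ≤ uu z * (2 * g2 f z) :=
      mul_le_mul_of_nonneg_left k1 (by linarith)
    have k3 : uu z * g2 f z ≤ 4 / 3 * (ps z * g2 f z) := by
      nlinarith [mul_le_mul_of_nonneg_right h3 hg]
    have hpg : 0 ≤ ps z * g2 f z := mul_nonneg hp hg
    nlinarith [mul_nonneg hn hpg]

end Vale.Agent.P088.HY.EQX
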