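import Vale.Agent.P088.R2.H87.X2
import Vale.Agent.P088.R2.H558.E9

/-!
# P088, formulas for `Gx`, `Gy`, `κ`, `[K_x, K_y]`
-/

open MeasureTheory Set Filter
open scoped ContDiff Matrix Topology

noncomputable section

namespace Vale.Agent.P088.HY.EQX

open Vale.Agent.P088.LR

variable {n : ℕ}

/-! ### Sums -/

lemma abs_sum1 {f : Fin n → ℝ} {M : ℝ} (h : ∀ i, |f i| ≤ M) : |∑ i, f i| ≤ n * M := by
  refine (Finset.abs_sum_le_sum_abs _ _).trans ?_
  have := Finset.sum_le_card_nsmul Finset.univ (fun i => |f i|) M (fun i _ => h i)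
  simpa using this

lemma abs_sum2 {f : Fin n → Fin n → ℝ} {M : ℝ} (h : ∀ i j, |f i j| ≤ M) :
    |∑ i, ∑ j, f i j| ≤ n * (n * M) := abs_sum1 fun i => abs_sum1 fun j => h i j

lemma abs_sum3 {f : Fin n → Fin n → Fin n → ℝ} {M : ℝ} (h : ∀ i j k, |f i j k| ≤ M) :
    |∑ i, ∑ j, ∑ k, f i j k| ≤ n * (n * (n * M)) :=
  abs_sum1 fun i => abs_sum2 fun j k => h i j k

lemma abs_sum4 {f : Fin n → Fin n → Fin n → Fin n → ℝ} {M : ℝ}
    (h : ∀ i j k l, |f i j k l| ≤ M) :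
    |∑ i, ∑ j, ∑ k, ∑ l, f i j k l| ≤ n * (n * (n * (n * M))) :=
  abs_sum1 fun i => abs_sum3 fun j k l => h i j k l

lemma abs_mul_le {a b A B : ℝ} (ha : |a| ≤ A) (hb : |b| ≤ B) : |a * b| ≤ A * B := by
  rw [abs_mul]
  exact mul_le_mul ha hb (abs_nonneg _) ((abs_nonneg _).trans ha)

/-! ### `N = s² - s` -/

/-- `(s sᵀ - s)_ij`. -/
def Nn (s : MF n) (x : V n) (i j : Fin n) : ℝ := ∑ k, s x i k * s x j k - s x i j

/-- `∑ (∑ s_ij P_i) (∑ s_ij Q_i) = ∑ N_ij P_i Q_j + ∑ s_ij P_i Q_j`. -/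
lemma pq_eq (s : MF n) (x : V n) (P Q : Fin n → ℝ) :
    ∑ j, (∑ i, s x i j * P i) * (∑ i, s x i j * Q i) =
      ∑ i, ∑ j, Nn s x i j * P i * Q j + ∑ i, ∑ j, s x i j * P i * Q j := by
  have h1 : ∀ k, (∑ i, s x i k * P i) * (∑ j, s x j k * Q j) =
      ∑ i, ∑ j, (s x i k * s x j k) * (P i * Q j) := by
    intro k
    rw [Finset.sum_mul_sum]
    refine Finset.sum_congr rfl fun i _ => Finset.sum_congr rfl fun j _ => ?_
    ring
  simp only [h1]
  rw [Finset.sum_comm, ← Finset.sum_add_distrib]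
  refine Finset.sum_congr rfl fun i _ => ?_
  rw [Finset.sum_comm, ← Finset.sum_add_distrib]
  refine Finset.sum_congr rfl fun j _ => ?_
  rw [← Finset.sum_mul]
  unfold Nn
  ring

section tensor

variable {ε η : ℝ} {s s₁ s₂ : MF n}

lemma abs_Nn (h : TS n 3 ε s) (h0 : 0 ≤ ε) (hε : ε ≤ 1) (x : V n) (i j : Fin n) :
    |Nn s x i j| ≤ (n + 1) * ε := by
  have e1 : ∑ k, s x i k * s x j k =
      ∑ k, (s x i k - kd i k) * (s x j k - kd j k) + (s x i j + s x j i - kd i j) := by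
    have h1 : ∀ k, s x i k * s x j k = (s x i k - kd i k) * (s x j k - kd j k) +
        (kd j k * s x i k + kd i k * s x j k - kd i k * kd j k) := by intro k; ring
    simp only [h1, Finset.sum_add_distrib, Finset.sum_sub_distrib]
    rw [sum_kd j fun k => s x i k, sum_kd i fun k => s x j k, sum_kd i fun k => kd j k,
      kd_comm j i]
  have e2 : Nn s x i j = ∑ k, (s x i k - kd i k) * (s x j k - kd j k) + (s x j i - kd j i) := by
    unfold Nn
    rw [e1, kd_comm j i]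
    ring
  have e3 : |∑ k, (s x i k - kd i k) * (s x j k - kd j k)| ≤ n * (ε * ε) :=
    abs_sum1 fun k => abs_mul_le (ts_0 h x i k) (ts_0 h x j k)
  have e4 := ts_0 h x j i
  rw [e2]
  refine (abs_add_le _ _).trans ?_
  have e5 : (n : ℝ) * (ε * ε) ≤ n * ε := by
    apply mul_le_mul_of_nonneg_left _ (Nat.cast_nonneg n)
    nlinarith
  linarith

lemma u_Nn_diff (h1 : TS n 3 ε s₁) (h2 : TS n 3 ε s₂) (hd : DB 3 η s₁ s₂) (h0 : 0 ≤ ε)
    (hε : ε ≤ 1) {z : VV n} (hz : z ∈ Un n) (i j : Fin n) :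
    uu z * |Nn s₁ z.1 i j - Nn s₂ z.2 i j| ≤ (4 * n + 1) * (3 * ε * ww z + η * uu z) := by
  have hu := one_le_uu hz
  have k := u_diff h1 hd h0 hz
  have hu0 : (0 : ℝ) ≤ uu z := by linarith
  have e1 : Nn s₁ z.1 i j - Nn s₂ z.2 i j =
      ∑ k, (s₁ z.1 i k * (s₁ z.1 j k - s₂ z.2 j k) + (s₁ z.1 i k - s₂ z.2 i k) * s₂ z.2 j k) -
        (s₁ z.1 i j - s₂ z.2 i j) := by
    unfold Nn
    have : ∑ k, (s₁ z.1 i k * (s₁ z.1 j k - s₂ z.2 j k) +
        (s₁ z.1 i k - s₂ z.2 i k) * s₂ z.2 j k) =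
        ∑ k, s₁ z.1 i k * s₁ z.1 j k - ∑ k, s₂ z.2 i k * s₂ z.2 j k := by
      rw [← Finset.sum_sub_distrib]
      exact Finset.sum_congr rfl fun k _ => by ring
    rw [this]
    ring
  have e2 : uu z * (Nn s₁ z.1 i j - Nn s₂ z.2 i j) =
      ∑ k, (s₁ z.1 i k * (uu z * (s₁ z.1 j k - s₂ z.2 j k)) +
        (uu z * (s₁ z.1 i k - s₂ z.2 i k)) * s₂ z.2 j k) -
        uu z * (s₁ z.1 i j - s₂ z.2 i j) := by
    rw [e1, mul_sub, Finset.mul_sum]
    congr 1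
    exact Finset.sum_congr rfl fun k _ => by ring
  have e3 : ∀ i j, |uu z * (s₁ z.1 i j - s₂ z.2 i j)| ≤ 3 * ε * ww z + η * uu z := by
    intro i j
    rw [abs_mul, abs_of_nonneg hu0]
    exact k i j
  have e4 : |∑ k, (s₁ z.1 i k * (uu z * (s₁ z.1 j k - s₂ z.2 j k)) +
        (uu z * (s₁ z.1 i k - s₂ z.2 i k)) * s₂ z.2 j k)| ≤
      n * (2 * (3 * ε * ww z + η * uu z) + (3 * ε * ww z + η * uu z) * 2) :=
    abs_sum1 fun k => (abs_add_le _ _).trans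
      (add_le_add (abs_mul_le (ts_le2 h1 hε _ _ _) (e3 j k))
        (abs_mul_le (e3 i k) (ts_le2 h2 hε _ _ _)))
  have e5 := e3 i j
  have e6 : uu z * |Nn s₁ z.1 i j - Nn s₂ z.2 i j| = |uu z * (Nn s₁ z.1 i j - Nn s₂ z.2 i j)| := by
    rw [abs_mul, abs_of_nonneg hu0]
  rw [e6, e2]
  refine (abs_sub _ _).trans ?_
  nlinarith

/-! ### The formula for `Gx` -/

/-- The small part of `Gx`. -/
def Ex (s : MF n) (b c : VV n → ℝ) (z : VV n) : ℝ :=
  -(2 * xa z * ∑ i, ∑ j, Nn s z.1 i j * Ax i b z * Ax j c z) +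
    2 * (∑ i, ∑ j, (s z.1 i j - kd i j) * z.1 i * al j z) * Gax s b c z + dsT Ax (sx s) b c z

/-- The small part of `Gy`. -/
def Ey (s : MF n) (b c : VV n → ℝ) (z : VV n) : ℝ :=
  -(2 * yb z * ∑ i, ∑ j, Nn s z.2 i j * By i b z * By j c z) +
    2 * (∑ i, ∑ j, (s z.2 i j - kd i j) * z.2 i * be j z) * Gay s b c z + dsT By (sy s) b c z

lemma sum_sub_kd (t : Fin n → Fin n → ℝ) (x a : Fin n → ℝ) :
    ∑ i, ∑ j, (t i j - kd i j) * x i * a j =
      ∑ i, ∑ j, t i j * x i * a j - ∑ i, x i * a i := by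
  rw [← Finset.sum_sub_distrib]
  refine Finset.sum_congr rfl fun i _ => ?_
  have h1 : x i * a i = x i * ∑ j, kd i j * a j := by rw [sum_kd i a]
  rw [h1, Finset.mul_sum, ← Finset.sum_sub_distrib]
  exact Finset.sum_congr rfl fun j _ => by ring

lemma Gx_eq (h : TS n 3 ε s) {b c : VV n → ℝ} (hb : SU b) (hc : SU c) {z : VV n}
    (hz : z ∈ Un n) :
    Gx s b c z = 2 * uu z * ∑ i, ∑ j, Nn s z.1 i j * Ax i b z * Ax j c z +
      2 * uu z * Gax s b c z + Ex s b c z := by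
  have h1 := Gam_formula (σ := sx s) fr_x (fun i j => su_sx h.sm i j)
    (fun i j z => ts_symm h z.1 i j) hb hc hz
  have h2 : Gx s b c z = 2 * (uu z - xa z) *
      ∑ j, (∑ i, s z.1 i j * Ax i b z) * (∑ i, s z.1 i j * Ax i c z) +
      2 * (∑ i, ∑ j, s z.1 i j * z.1 i * al j z) * Gax s b c z + dsT Ax (sx s) b c z := h1
  have h3 : ∑ i, ∑ j, s z.1 i j * Ax i b z * Ax j c z = Gax s b c z := rfl
  have h4 : xa z = ∑ i, z.1 i * al i z := rfl
  rw [h2, pq_eq, h3]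
  unfold Ex
  rw [sum_sub_kd (fun i j => s z.1 i j) (fun i => z.1 i) (fun j => al j z), ← h4]
  ring

lemma Gy_eq (h : TS n 3 ε s) {b c : VV n → ℝ} (hb : SU b) (hc : SU c) {z : VV n}
    (hz : z ∈ Un n) :
    Gy s b c z = 2 * uu z * ∑ i, ∑ j, Nn s z.2 i j * By i b z * By j c z +
      2 * uu z * Gay s b c z + Ey s b c z := by
  have h1 := Gam_formula (σ := sy s) fr_y (fun i j => su_sy h.sm i j)
    (fun i j z => ts_symm h z.2 i j) hb hc hz
  have h2 : Gy s b c z = 2 * (uu z - yb z) *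
      ∑ j, (∑ i, s z.2 i j * By i b z) * (∑ i, s z.2 i j * By i c z) +
      2 * (∑ i, ∑ j, s z.2 i j * z.2 i * be j z) * Gay s b c z + dsT By (sy s) b c z := h1
  have h3 : ∑ i, ∑ j, s z.2 i j * By i b z * By j c z = Gay s b c z := rfl
  have h4 : yb z = ∑ i, z.2 i * be i z := rfl
  rw [h2, pq_eq, h3]
  unfold Ey
  rw [sum_sub_kd (fun i j => s z.2 i j) (fun i => z.2 i) (fun j => be j z), ← h4]
  ring

/-- A bound for five factors. -/
lemma five {a b c d e A B C D E : ℝ} (ha : |a| ≤ A) (hb : |b| ≤ B) (hc : |c| ≤ C) (hd : |d| ≤ D)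
    (he : |e| ≤ E) : |a * b * c * d * e| ≤ A * B * C * D * E :=
  abs_mul_le (abs_mul_le (abs_mul_le (abs_mul_le ha hb) hc) hd) he

lemma abs_dsT {D : Fin n → (VV n → ℝ) → VV n → ℝ} {σ : Fin n → Fin n → VV n → ℝ}
    {b c : VV n → ℝ} {z : VV n} {ε W P Q : ℝ} (hσ : ∀ i j, |σ i j z| ≤ 2)
    (hd : ∀ j k l, |D j (σ k l) z| ≤ ε) (ha : ∀ i, |D i uu z| ≤ W) (hb : ∀ i, |D i b z| ≤ P)
    (hc : ∀ i, |D i c z| ≤ Q) : |dsT D σ b c z| ≤ 6 * (n : ℝ) ^ 4 * (ε * W * P * Q) := by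
  unfold dsT
  have t1 := abs_sum4 (fun i j k l => five (hσ i j) (hb i) (hd j k l) (ha k) (hc l))
  have t2 := abs_sum4 (fun i j k l => five (hσ i j) (hc i) (hd j k l) (ha k) (hb l))
  have t3 := abs_sum4 (fun i j k l => five (hσ i j) (ha i) (hd j k l) (hb k) (hc l))
  refine (abs_sub _ _).trans ?_
  refine (add_le_add (abs_add_le _ _) le_rfl).trans ?_
  refine (add_le_add (add_le_add t1 t2) t3).trans (le_of_eq ?_)
  ring

lemma abs_xa {z : VV n} (hz : z ∈ Un n) : |xa z| ≤ n * (1 * ww z) :=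
  abs_sum1 fun i => abs_mul_le (abs_x_le hz i) (abs_al hz i)

lemma abs_yb {z : VV n} (hz : z ∈ Un n) : |yb z| ≤ n * (1 * ww z) :=
  abs_sum1 fun i => abs_mul_le (abs_y_le hz i) (abs_be hz i)

lemma abs3 {a b c A B C : ℝ} (ha : |a| ≤ A) (hb : |b| ≤ B) (hc : |c| ≤ C) :
    |a * b * c| ≤ A * B * C := abs_mul_le (abs_mul_le ha hb) hc

/-- The constant in the bound of `Ex`. -/
def cE (n : ℕ) : ℝ := 2 * (n : ℝ) ^ 3 * (n + 1) + 4 * (n : ℝ) ^ 4 + 6 * (n : ℝ) ^ 4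

lemma cE_nonneg (n : ℕ) : 0 ≤ cE n := by unfold cE; positivity

lemma abs_Ex (h : TS n 3 ε s) (h0 : 0 ≤ ε) (hε : ε ≤ 1) {b c : VV n → ℝ} {z : VV n}
    (hz : z ∈ Un n) {P Q : ℝ} (hb : ∀ i, |Ax i b z| ≤ P) (hc : ∀ i, |Ax i c z| ≤ Q) :
    |Ex s b c z| ≤ cE n * (ε * ww z * P * Q) := by
  unfold Ex
  have t0 := abs_sum2 (fun i j => abs3 (abs_Nn h h0 hε z.1 i j) (hb i) (hc j))
  have t1 : |2 * xa z * ∑ i, ∑ j, Nn s z.1 i j * Ax i b z * Ax j c z| ≤
      2 * (n * (1 * ww z)) * (n * (n * ((n + 1) * ε * P * Q))) :=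
    abs_mul_le (abs_mul_le (by norm_num) (abs_xa hz)) t0
  have t2 : |2 * (∑ i, ∑ j, (s z.1 i j - kd i j) * z.1 i * al j z) * Gax s b c z| ≤
      2 * (n * (n * (ε * 1 * ww z))) * (n * (n * (2 * P * Q))) :=
    abs_mul_le (abs_mul_le (by norm_num) (abs_sum2 fun i j => abs3 (ts_0 h z.1 i j)
      (abs_x_le hz i) (abs_al hz j))) (abs_sum2 fun i j => abs3 (ts_le2 h hε z.1 i j) (hb i) (hc j))
  have t3 : |dsT Ax (sx s) b c z| ≤ 6 * (n : ℝ) ^ 4 * (ε * ww z * P * Q) :=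
    abs_dsT (fun i j => ts_le2 h hε z.1 i j) (fun j k l => Ax_s1 h h0 hz k l j)
      (fun i => abs_al hz i) hb hc
  refine (abs_add_le _ _).trans ?_
  refine (add_le_add (abs_add_le _ _) le_rfl).trans ?_
  rw [abs_neg]
  refine (add_le_add (add_le_add t1 t2) t3).trans (le_of_eq ?_)
  unfold cE
  ring

lemma abs_Ey (h : TS n 3 ε s) (h0 : 0 ≤ ε) (hε : ε ≤ 1) {b c : VV n → ℝ} {z : VV n}
    (hz : z ∈ Un n) {P Q : ℝ} (hb : ∀ i, |By i b z| ≤ P) (hc : ∀ i, |By i c z| ≤ Q) :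
    |Ey s b c z| ≤ cE n * (ε * ww z * P * Q) := by
  unfold Ey
  have t0 := abs_sum2 (fun i j => abs3 (abs_Nn h h0 hε z.2 i j) (hb i) (hc j))
  have t1 : |2 * yb z * ∑ i, ∑ j, Nn s z.2 i j * By i b z * By j c z| ≤
      2 * (n * (1 * ww z)) * (n * (n * ((n + 1) * ε * P * Q))) :=
    abs_mul_le (abs_mul_le (by norm_num) (abs_yb hz)) t0
  have t2 : |2 * (∑ i, ∑ j, (s z.2 i j - kd i j) * z.2 i * be j z) * Gay s b c z| ≤
      2 * (n * (n * (ε * 1 * ww z))) * (n * (n * (2 * P * Q))) :=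
    abs_mul_le (abs_mul_le (by norm_num) (abs_sum2 fun i j => abs3 (ts_0 h z.2 i j)
      (abs_y_le hz i) (abs_be hz j))) (abs_sum2 fun i j => abs3 (ts_le2 h hε z.2 i j) (hb i) (hc j))
  have t3 : |dsT By (sy s) b c z| ≤ 6 * (n : ℝ) ^ 4 * (ε * ww z * P * Q) :=
    abs_dsT (fun i j => ts_le2 h hε z.2 i j) (fun j k l => By_s2 h h0 hz k l j)
      (fun i => abs_be hz i) hb hc
  refine (abs_add_le _ _).trans ?_
  refine (add_le_add (abs_add_le _ _) le_rfl).trans ?_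
  rw [abs_neg]
  refine (add_le_add (add_le_add t1 t2) t3).trans (le_of_eq ?_)
  unfold cE
  ring

/-! ### `κ` -/

lemma kax_formula (h : TS n 3 ε s) {z : VV n} (hz : z ∈ Un n) :
    kax s z = (∑ i, s z.1 i i) * (uu z - xa z) + n * ∑ i, ∑ j, s z.1 i j * z.1 i * al j z := by
  rw [kax_eq]
  show ∑ i, ∑ j, s z.1 i j * (Ax i (al j) z + (n - 1) * z.1 i * al j z) = _
  have h1 : ∀ i j, s z.1 i j * (Ax i (al j) z + (n - 1) * z.1 i * al j z) =
      kd i j * (s z.1 i j * (uu z - xa z)) + s z.1 j i * z.1 j * al i z +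
        (n - 1) * (s z.1 i j * z.1 i * al j z) := by
    intro i j
    rw [Ax_al hz, ts_symm h z.1 j i]
    ring
  simp only [h1, Finset.sum_add_distrib, ← Finset.mul_sum]
  have h2 : ∑ i, ∑ j, s z.1 j i * z.1 j * al i z = ∑ i, ∑ j, s z.1 i j * z.1 i * al j z :=
    Finset.sum_comm
  have h3 : ∑ i, ∑ j, kd i j * (s z.1 i j * (uu z - xa z)) =
      (∑ i, s z.1 i i) * (uu z - xa z) := by
    rw [Finset.sum_mul]
    exact Finset.sum_congr rfl fun i _ => sum_kd i fun j => s z.1 i j * (uu z - xa z)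
  rw [h2, h3]
  ring

lemma kay_formula (h : TS n 3 ε s) {z : VV n} (hz : z ∈ Un n) :
    kay s z = (∑ i, s z.2 i i) * (uu z - yb z) + n * ∑ i, ∑ j, s z.2 i j * z.2 i * be j z := by
  rw [kay_eq]
  show ∑ i, ∑ j, s z.2 i j * (By i (be j) z + (n - 1) * z.2 i * be j z) = _
  have h1 : ∀ i j, s z.2 i j * (By i (be j) z + (n - 1) * z.2 i * be j z) =
      kd i j * (s z.2 i j * (uu z - yb z)) + s z.2 j i * z.2 j * be i z +
        (n - 1) * (s z.2 i j * z.2 i * be j z) := by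
    intro i j
    rw [By_be hz, ts_symm h z.2 j i]
    ring
  simp only [h1, Finset.sum_add_distrib, ← Finset.mul_sum]
  have h2 : ∑ i, ∑ j, s z.2 j i * z.2 j * be i z = ∑ i, ∑ j, s z.2 i j * z.2 i * be j z :=
    Finset.sum_comm
  have h3 : ∑ i, ∑ j, kd i j * (s z.2 i j * (uu z - yb z)) =
      (∑ i, s z.2 i i) * (uu z - yb z) := by
    rw [Finset.sum_mul]
    exact Finset.sum_congr rfl fun i _ => sum_kd i fun j => s z.2 i j * (uu z - yb z)
  rw [h2, h3]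
  ring

/-! ### The commutator `[K_x, K_y]` -/

/-- The small part of `[s₁ α·A, s₂ β·B]`. -/
def C1 (s₁ s₂ : MF n) (c : VV n → ℝ) (z : VV n) : ℝ :=
  ∑ i, ∑ j, ∑ k, ∑ l, (s₁ z.1 i j - kd i j) * al i z * mm j k z * s₂ z.2 k l * By l c z -
    ∑ i, ∑ j, ∑ k, ∑ l, (s₂ z.2 i j - kd i j) * be i z * mm k j z * s₁ z.1 k l * Ax l c z

lemma comm_Ga (h1 : TS n 3 ε s₁) (h2 : TS n 3 ε s₂) {c : VV n → ℝ} (hc : SU c) {z : VV n}
    (hz : z ∈ Un n) :
    Gax s₁ uu (Gay s₂ uu c) z - Gay s₂ uu (Gax s₁ uu c) z =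
      C1 s₁ s₂ c z + uu z * Gay s₂ uu c z - uu z * Gax s₁ uu c z := by
  have a1 : Gax s₁ uu (Gay s₂ uu c) z = ∑ i, ∑ j, ∑ k, ∑ l,
      (s₁ z.1 i j * al i z * s₂ z.2 k l * (mm j k z * By l c z) +
        s₁ z.1 i j * al i z * s₂ z.2 k l * (be k z * Ax j (By l c) z)) := by
    show ∑ i, ∑ j, s₁ z.1 i j * al i z * Ax j (Gay s₂ uu c) z = _
    refine Finset.sum_congr rfl fun i _ => Finset.sum_congr rfl fun j _ => ?_
    rw [Ax_Gay h2.sm su_uu hc hz, Finset.mul_sum]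
    refine Finset.sum_congr rfl fun k _ => ?_
    rw [Finset.mul_sum]
    refine Finset.sum_congr rfl fun l _ => ?_
    show _ * (s₂ z.2 k l * (mm j k z * By l c z + be k z * Ax j (By l c) z)) = _
    ring
  have a2 : Gay s₂ uu (Gax s₁ uu c) z = ∑ k, ∑ l, ∑ i, ∑ j,
      (s₂ z.2 k l * be k z * s₁ z.1 i j * (mm i l z * Ax j c z) +
        s₁ z.1 i j * al i z * s₂ z.2 k l * (be k z * Ax j (By l c) z)) := by
    show ∑ k, ∑ l, s₂ z.2 k l * be k z * By l (Gax s₁ uu c) z = _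
    refine Finset.sum_congr rfl fun k _ => Finset.sum_congr rfl fun l _ => ?_
    rw [By_Gax h1.sm su_uu hc hz, Finset.mul_sum]
    refine Finset.sum_congr rfl fun i _ => ?_
    rw [Finset.mul_sum]
    refine Finset.sum_congr rfl fun j _ => ?_
    rw [Ax_By_comm hc hz j l]
    show _ * (s₁ z.1 i j * (By l (al i) z * Ax j c z + al i z * By l (Ax j c) z)) = _
    rw [By_al hz]
    ring
  have r : ∀ (G : Fin n → Fin n → Fin n → Fin n → ℝ),
      ∑ k, ∑ l, ∑ i, ∑ j, G k l i j = ∑ i, ∑ j, ∑ k, ∑ l, G k l i j := by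
    intro G
    calc ∑ k, ∑ l, ∑ i, ∑ j, G k l i j = ∑ k, ∑ i, ∑ l, ∑ j, G k l i j :=
          Finset.sum_congr rfl fun k _ => Finset.sum_comm
      _ = ∑ i, ∑ k, ∑ l, ∑ j, G k l i j := Finset.sum_comm
      _ = ∑ i, ∑ k, ∑ j, ∑ l, G k l i j :=
          Finset.sum_congr rfl fun i _ => Finset.sum_congr rfl fun k _ => Finset.sum_comm
      _ = ∑ i, ∑ j, ∑ k, ∑ l, G k l i j := Finset.sum_congr rfl fun i _ => Finset.sum_comm
  have b1 : ∑ i, ∑ j, ∑ k, ∑ l, s₁ z.1 i j * al i z * mm j k z * s₂ z.2 k l * By l c z =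
      ∑ i, ∑ j, ∑ k, ∑ l, (s₁ z.1 i j - kd i j) * al i z * mm j k z * s₂ z.2 k l * By l c z +
        uu z * Gay s₂ uu c z := by
    have e : uu z * Gay s₂ uu c z = ∑ i, ∑ j, ∑ k, ∑ l,
        kd i j * al i z * mm j k z * s₂ z.2 k l * By l c z := by
      have e1 : ∀ i : Fin n, ∑ j, ∑ k, ∑ l, kd i j * al i z * mm j k z * s₂ z.2 k l * By l c z =
          ∑ k, ∑ l, al i z * mm i k z * s₂ z.2 k l * By l c z := by
        intro i
        have e2 : ∀ j, ∑ k, ∑ l, kd i j * al i z * mm j k z * s₂ z.2 k l * By l c z =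
            kd i j * ∑ k, ∑ l, al i z * mm j k z * s₂ z.2 k l * By l c z := by
          intro j
          simp only [Finset.mul_sum]
          exact Finset.sum_congr rfl fun k _ => Finset.sum_congr rfl fun l _ => by ring
        simp only [e2]
        exact sum_kd i fun j => ∑ k, ∑ l, al i z * mm j k z * s₂ z.2 k l * By l c z
      simp only [e1]
      rw [Finset.sum_comm]
      show uu z * ∑ k, ∑ l, s₂ z.2 k l * be k z * By l c z = _
      rw [Finset.mul_sum]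
      refine Finset.sum_congr rfl fun k _ => ?_
      rw [Finset.sum_comm, Finset.mul_sum]
      refine Finset.sum_congr rfl fun l _ => ?_
      have e3 : ∑ i, al i z * mm i k z * s₂ z.2 k l * By l c z =
          (∑ i, mm i k z * al i z) * (s₂ z.2 k l * By l c z) := by
        rw [Finset.sum_mul]
        exact Finset.sum_congr rfl fun i _ => by ring
      rw [e3, sum_mm_al hz]
      ring
    rw [e]
    simp only [← Finset.sum_add_distrib]
    refine Finset.sum_congr rfl fun i _ => Finset.sum_congr rfl fun j _ =>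
      Finset.sum_congr rfl fun k _ => Finset.sum_congr rfl fun l _ => ?_
    ring
  have b2 : ∑ i, ∑ j, ∑ k, ∑ l, s₂ z.2 i j * be i z * mm k j z * s₁ z.1 k l * Ax l c z =
      ∑ i, ∑ j, ∑ k, ∑ l, (s₂ z.2 i j - kd i j) * be i z * mm k j z * s₁ z.1 k l * Ax l c z +
        uu z * Gax s₁ uu c z := by
    have e : uu z * Gax s₁ uu c z = ∑ i, ∑ j, ∑ k, ∑ l,
        kd i j * be i z * mm k j z * s₁ z.1 k l * Ax l c z := by
      have e1 : ∀ i : Fin n, ∑ j, ∑ k, ∑ l, kd i j * be i z * mm k j z * s₁ z.1 k l * Ax l c z =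
          ∑ k, ∑ l, be i z * mm k i z * s₁ z.1 k l * Ax l c z := by
        intro i
        have e2 : ∀ j, ∑ k, ∑ l, kd i j * be i z * mm k j z * s₁ z.1 k l * Ax l c z =
            kd i j * ∑ k, ∑ l, be i z * mm k j z * s₁ z.1 k l * Ax l c z := by
          intro j
          simp only [Finset.mul_sum]
          exact Finset.sum_congr rfl fun k _ => Finset.sum_congr rfl fun l _ => by ring
        simp only [e2]
        exact sum_kd i fun j => ∑ k, ∑ l, be i z * mm k j z * s₁ z.1 k l * Ax l c z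
      simp only [e1]
      rw [Finset.sum_comm]
      show uu z * ∑ k, ∑ l, s₁ z.1 k l * al k z * Ax l c z = _
      rw [Finset.mul_sum]
      refine Finset.sum_congr rfl fun k _ => ?_
      rw [Finset.sum_comm, Finset.mul_sum]
      refine Finset.sum_congr rfl fun l _ => ?_
      have e3 : ∑ i, be i z * mm k i z * s₁ z.1 k l * Ax l c z =
          (∑ i, mm k i z * be i z) * (s₁ z.1 k l * Ax l c z) := by
        rw [Finset.sum_mul]
        exact Finset.sum_congr rfl fun i _ => by ring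
      rw [e3, sum_mm_be hz]
      ring
    rw [e]
    simp only [← Finset.sum_add_distrib]
    refine Finset.sum_congr rfl fun i _ => Finset.sum_congr rfl fun j _ =>
      Finset.sum_congr rfl fun k _ => Finset.sum_congr rfl fun l _ => ?_
    ring
  have c1 : ∑ i, ∑ j, ∑ k, ∑ l, s₁ z.1 i j * al i z * s₂ z.2 k l * (mm j k z * By l c z) =
      ∑ i, ∑ j, ∑ k, ∑ l, s₁ z.1 i j * al i z * mm j k z * s₂ z.2 k l * By l c z :=
    Finset.sum_congr rfl fun i _ => Finset.sum_congr rfl fun j _ =>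
      Finset.sum_congr rfl fun k _ => Finset.sum_congr rfl fun l _ => by ring
  have c2 : ∑ k, ∑ l, ∑ i, ∑ j, s₂ z.2 k l * be k z * s₁ z.1 i j * (mm i l z * Ax j c z) =
      ∑ i, ∑ j, ∑ k, ∑ l, s₂ z.2 i j * be i z * mm k j z * s₁ z.1 k l * Ax l c z :=
    Finset.sum_congr rfl fun i _ => Finset.sum_congr rfl fun j _ =>
      Finset.sum_congr rfl fun k _ => Finset.sum_congr rfl fun l _ => by ring
  have c3 : ∑ k, ∑ l, ∑ i, ∑ j, s₁ z.1 i j * al i z * s₂ z.2 k l * (be k z * Ax j (By l c) z) =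
      ∑ i, ∑ j, ∑ k, ∑ l, s₁ z.1 i j * al i z * s₂ z.2 k l * (be k z * Ax j (By l c) z) :=
    r fun k l i j => s₁ z.1 i j * al i z * s₂ z.2 k l * (be k z * Ax j (By l c) z)
  rw [a1, a2]
  simp only [Finset.sum_add_distrib]
  rw [c1, c2, c3, b1, b2]
  unfold C1
  ring

/-- The commutator `[K_x, K_y]`. -/
lemma K_comm (h1 : TS n 3 ε s₁) (h2 : TS n 3 ε s₂) {c : VV n → ℝ} (hc : SU c) {z : VV n}
    (hz : z ∈ Un n) :
    Kxs s₁ (Kys s₂ c) z - Kys s₂ (Kxs s₁ c) z =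
      4 * (C1 s₁ s₂ c z + uu z * Gay s₂ uu c z - uu z * Gax s₁ uu c z) +
        2 * (Gax s₁ uu (kay s₂) z - Gay s₂ uu (kax s₁) z) * c z := by
  have hkx := su_kax h1.sm
  have hky := su_kay h2.sm
  have e1 : Kys s₂ c = fun z => 2 * Gay s₂ uu c z + kay s₂ z * c z := by
    funext z; rw [Kys_eq, ← kay_eq]
  have e2 : Kxs s₁ c = fun z => 2 * Gax s₁ uu c z + kax s₁ z * c z := by
    funext z; rw [Kxs_eq, ← kax_eq]
  have e3 : Kxs s₁ (Kys s₂ c) z = 2 * (2 * Gax s₁ uu (Gay s₂ uu c) z +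
      (kay s₂ z * Gax s₁ uu c z + c z * Gax s₁ uu (kay s₂) z)) +
      kax s₁ z * (2 * Gay s₂ uu c z + kay s₂ z * c z) := by
    rw [Kxs_eq, ← kax_eq, e1, Gax_add s₁ (contDiffOn_const.mul (su_Gay h2.sm su_uu hc))
      (hky.mul hc) hz, Gax_cmul, Gax_mul s₁ hky hc hz]
  have e4 : Kys s₂ (Kxs s₁ c) z = 2 * (2 * Gay s₂ uu (Gax s₁ uu c) z +
      (kax s₁ z * Gay s₂ uu c z + c z * Gay s₂ uu (kax s₁) z)) +
      kay s₂ z * (2 * Gax s₁ uu c z + kax s₁ z * c z) := by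
    rw [Kys_eq, ← kay_eq, e2, Gay_add s₂ (contDiffOn_const.mul (su_Gax h1.sm su_uu hc))
      (hkx.mul hc) hz, Gay_cmul, Gay_mul s₂ hkx hc hz]
  have e5 := comm_Ga h1 h2 hc hz
  rw [e3, e4]
  linear_combination 4 * e5

end tensor

end Vale.Agent.P088.HY.EQX
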