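import Vale.Agent.P088.R2.H87.X3

/-!
# P088, the swap and the reduction of the mixed term to pointwise terms
-/

open MeasureTheory Set Filter
open scoped ContDiff Matrix Topology

noncomputable section

namespace Vale.Agent.P088.HY.EQX

open Vale.Agent.P088.LR

variable {n : ℕ}

/-- The lower order term of the swap. -/
def LL (w c : VV n → ℝ) (i j : Fin n) (z : VV n) : ℝ :=
  -((Ax i w z + By i w z) * By j c z) + By j w z * (Ax i c z + By i c z) -
    w z * (z.2 j * By i c z - z.2 i * By j c z) -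
    (n - 1) * (z.1 i + z.2 i) * w z * By j c z + (n - 1) * z.2 j * w z * (Ax i c z + By i c z)

/-- The swap. -/
lemma swap {w b c : VV n → ℝ} (hw : SU w) (hb : TF (Un n) b) (hc : TF (Un n) c) (i j : Fin n) :
    EE (fun z => w z * ((Ax i b z + By i b z) * By j c z - By j b z * (Ax i c z + By i c z)) -
      b z * LL w c i j z) = 0 := by
  have sB := su_By hc.su j
  have sD : SU (fun z => Ax i c z + By i c z) := (su_Ax hc.su i).add (su_By hc.su i)
  have hg : SU (fun z => w z * By j c z) := hw.mul sB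
  have hg2 : SU (fun z => w z * (Ax i c z + By i c z)) := hw.mul sD
  have a1 := EE_Ax_mul hb hg i
  have a2 := EE_By_mul hb hg i
  have a3 := EE_By_mul hb hg2 j
  have t1 := (hb.Ax i).mul_su hg
  have t2 := (hb.By i).mul_su hg
  have t3 := (hb.By j).mul_su hg2
  have r1' : TF (Un n) (fun z => b z * (Ax i (fun z => w z * By j c z) z +
      (n - 1) * (z.1 i * (w z * By j c z)))) :=
    hb.mul_su ((su_Ax hg i).add (contDiffOn_const.mul ((su_x i).mul hg)))
  have r2' : TF (Un n) (fun z => b z * (By i (fun z => w z * By j c z) z +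
      (n - 1) * (z.2 i * (w z * By j c z)))) :=
    hb.mul_su ((su_By hg i).add (contDiffOn_const.mul ((su_y i).mul hg)))
  have r3' : TF (Un n) (fun z => b z * (By j (fun z => w z * (Ax i c z + By i c z)) z +
      (n - 1) * (z.2 j * (w z * (Ax i c z + By i c z))))) :=
    hb.mul_su ((su_By hg2 j).add (contDiffOn_const.mul ((su_y j).mul hg2)))
  have e1 : EE (fun z => w z * ((Ax i b z + By i b z) * By j c z -
      By j b z * (Ax i c z + By i c z)) - b z * LL w c i j z) =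
      EE (fun z => ((Ax i b z * (w z * By j c z) + By i b z * (w z * By j c z)) -
        By j b z * (w z * (Ax i c z + By i c z))) +
        ((b z * (Ax i (fun z => w z * By j c z) z + (n - 1) * (z.1 i * (w z * By j c z))) +
        b z * (By i (fun z => w z * By j c z) z + (n - 1) * (z.2 i * (w z * By j c z)))) -
        b z * (By j (fun z => w z * (Ax i c z + By i c z)) z +
          (n - 1) * (z.2 j * (w z * (Ax i c z + By i c z)))))) := by
    refine EE_congr fun z hz => ?_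
    rw [Ax_mul hw sB hz, By_mul hw sB hz, By_mul hw sD hz,
      By_add (su_Ax hc.su i) (su_By hc.su i) hz, Ax_By_comm hc.su hz, By_comm hc.su hz i j]
    unfold LL
    ring
  rw [e1, EE_add ((t1.add t2).sub t3) ((r1'.add r2').sub r3'), EE_sub (t1.add t2) t3,
    EE_add t1 t2, EE_sub (r1'.add r2') r3', EE_add r1' r2', a1, a2, a3]
  ring

lemma su_LL {w c : VV n → ℝ} (hw : SU w) (hc : SU c) (i j : Fin n) : SU (LL w c i j) := by
  have sB := fun j => su_By hc j
  have sA := fun j => su_Ax hc j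
  have sD : SU (fun z => Ax i c z + By i c z) := (sA i).add (sB i)
  unfold LL
  exact ((((((su_Ax hw i).add (su_By hw i)).mul (sB j)).neg).add ((su_By hw j).mul sD)).sub
    (hw.mul (((su_y j).mul (sB i)).sub ((su_y i).mul (sB j))))).sub
    (((contDiffOn_const.mul ((su_x i).add (su_y i))).mul hw).mul (sB j)) |>.add
    (((contDiffOn_const.mul (su_y j)).mul hw).mul sD)

/-- The weight `u N_ij`. -/
def wN (s : MF n) (i j : Fin n) (z : VV n) : ℝ := uu z * Nn s z.1 i j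

lemma contDiff_Nn {s : MF n} (hs : SmM s) (i j : Fin n) : ContDiff ℝ ∞ (fun x => Nn s x i j) := by
  unfold Nn
  exact (ContDiff.sum fun k _ => (hs i k).mul (hs j k)).sub (hs i j)

lemma su_Nn {s : MF n} (hs : SmM s) (i j : Fin n) : SU (fun z : VV n => Nn s z.1 i j) :=
  ((contDiff_Nn hs i j).comp contDiff_fst).contDiffOn

lemma su_wN {s : MF n} (hs : SmM s) (i j : Fin n) : SU (wN s i j) := su_uu.mul (su_Nn hs i j)

/-- The function of the reduction. -/
def RR (s₁ s₂ : MF n) (τ : ℝ) (b c : VV n → ℝ) (z : VV n) : ℝ :=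
  (qX s₁ s₂ τ b c z + 4 * τ * (uu z * b z * (Px s₁ τ c z - Py s₂ τ c z))) +
    (-(4 * τ) * (L0x s₁ c z * (uu z * b z) + Gax s₁ c (fun z => uu z * b z) z) +
      4 * τ * (L0y s₂ c z * (uu z * b z) + Gay s₂ c (fun z => uu z * b z) z)) +
    4 * τ * ∑ i, ∑ j, (wN s₁ i j z * ((Ax i b z + By i b z) * By j c z -
      By j b z * (Ax i c z + By i c z)) - b z * LL (wN s₁ i j) c i j z)

section main

variable {ε η : ℝ} {s₁ s₂ : MF n}

lemma tf_qX (h1 : SmM s₁) (h2 : SmM s₂) (τ : ℝ) {b c : VV n → ℝ} (hb : TF (Un n) b)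
    (hc : TF (Un n) c) : TF (Un n) (qX s₁ s₂ τ b c) := by
  have k1 := (((su_L0x h1 (su_kax h1)).sub (su_L0y h2 (su_kay h2))).neg.add
    ((contDiffOn_const (c := (2 : ℝ))).mul
      ((su_Gax h1 su_uu (su_vx h1)).sub (su_Gay h2 su_uu (su_vy h2)))))
  have k2 := (su_Gax h1 su_uu (su_Fxs h1)).sub (su_Gay h2 su_uu (su_Fys h2))
  have k3 := (su_Kxs h1 (su_Kys h2 hc.su)).sub (su_Kys h2 (su_Kxs h1 hc.su))
  exact ((((tf_Gx h1 hb hc).sub (tf_Gy h2 hb hc)).const_mul (2 * τ)).add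
    ((hb.mul hc).smul (contDiffOn_const.mul k1))).add
    ((hb.mul hc).smul (contDiffOn_const.mul k2)) |>.add
    ((hb.mul_su k3).const_mul (2 * τ ^ 2))

lemma tf_RR (h1 : SmM s₁) (h2 : SmM s₂) (τ : ℝ) {b c : VV n → ℝ} (hb : TF (Un n) b)
    (hc : TF (Un n) c) : TF (Un n) (RR s₁ s₂ τ b c) := by
  have hub := hb.smul su_uu
  have p := (tf_Px h1 τ hc).sub (tf_Py h2 τ hc)
  have q1 := (tf_qX h1 h2 τ hb hc).add (((hub.mul p)).const_mul (4 * τ))
  have q2 := ((hub.smul (su_L0x h1 hc.su)).add (tf_Gax h1 hc.su hub)).const_mul (-(4 * τ))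
  have q3 := ((hub.smul (su_L0y h2 hc.su)).add (tf_Gay h2 hc.su hub)).const_mul (4 * τ)
  have q4 : TF (Un n) (fun z => ∑ i, ∑ j, (wN s₁ i j z * ((Ax i b z + By i b z) * By j c z -
      By j b z * (Ax i c z + By i c z)) - b z * LL (wN s₁ i j) c i j z)) :=
    TF.sum _ fun i => TF.sum _ fun j =>
      (((((hb.Ax i).add (hb.By i)).mul (hc.By j)).sub ((hb.By j).mul ((hc.Ax i).add
        (hc.By i)))).smul (su_wN h1 i j)).sub (hb.mul_su (su_LL (su_wN h1 i j) hc.su i j))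
  exact (q1.add (q2.add q3)).add (q4.const_mul (4 * τ))

lemma EE_RR (h1 : TD s₁) (h2 : TD s₂) (τ : ℝ) {b c : VV n → ℝ} (hb : TF (Un n) b)
    (hc : TF (Un n) c) : EE (RR s₁ s₂ τ b c) = EE (qX s₁ s₂ τ b c) +
      4 * τ * EE (fun z => uu z * b z * (Px s₁ τ c z - Py s₂ τ c z)) := by
  have hub := hb.smul su_uu
  have p := (tf_Px h1.sm τ hc).sub (tf_Py h2.sm τ hc)
  have p2 := hub.mul p
  have q1 := (tf_qX h1.sm h2.sm τ hb hc).add (p2.const_mul (4 * τ))
  have g2 := (hub.smul (su_L0x h1.sm hc.su)).add (tf_Gax h1.sm hc.su hub)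
  have g3 := (hub.smul (su_L0y h2.sm hc.su)).add (tf_Gay h2.sm hc.su hub)
  have t4 : ∀ i j, TF (Un n) (fun z => wN s₁ i j z * ((Ax i b z + By i b z) * By j c z -
      By j b z * (Ax i c z + By i c z)) - b z * LL (wN s₁ i j) c i j z) := fun i j =>
      (((((hb.Ax i).add (hb.By i)).mul (hc.By j)).sub ((hb.By j).mul ((hc.Ax i).add
        (hc.By i)))).smul (su_wN h1.sm i j)).sub (hb.mul_su (su_LL (su_wN h1.sm i j) hc.su i j))
  have q4 : TF (Un n) (fun z => ∑ i, ∑ j, (wN s₁ i j z * ((Ax i b z + By i b z) * By j c z -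
      By j b z * (Ax i c z + By i c z)) - b z * LL (wN s₁ i j) c i j z)) :=
    TF.sum _ fun i => TF.sum _ fun j => t4 i j
  have z2 : EE (fun z => L0x s₁ c z * (uu z * b z) + Gax s₁ c (fun z => uu z * b z) z) = 0 := by
    have e := EE_L0x h1 hc.su hub
    have e2 := EE_add (hub.smul (su_L0x h1.sm hc.su)) (tf_Gax h1.sm hc.su hub)
    rw [e2, e]
    ring
  have z3 : EE (fun z => L0y s₂ c z * (uu z * b z) + Gay s₂ c (fun z => uu z * b z) z) = 0 := by
    have e := EE_L0y h2 hc.su hub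
    have e2 := EE_add (hub.smul (su_L0y h2.sm hc.su)) (tf_Gay h2.sm hc.su hub)
    rw [e2, e]
    ring
  have z4 : EE (fun z => ∑ i, ∑ j, (wN s₁ i j z * ((Ax i b z + By i b z) * By j c z -
      By j b z * (Ax i c z + By i c z)) - b z * LL (wN s₁ i j) c i j z)) = 0 := by
    rw [EE_sum _ fun i => TF.sum _ fun j => t4 i j]
    refine Finset.sum_eq_zero fun i _ => ?_
    rw [EE_sum _ fun j => t4 i j]
    exact Finset.sum_eq_zero fun j _ => swap (su_wN h1.sm i j) hb hc i j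
  have k1 := EE_add (q1.add ((g2.const_mul (-(4 * τ))).add (g3.const_mul (4 * τ))))
    (q4.const_mul (4 * τ))
  have k2 := EE_add q1 ((g2.const_mul (-(4 * τ))).add (g3.const_mul (4 * τ)))
  have k3 := EE_add (g2.const_mul (-(4 * τ))) (g3.const_mul (4 * τ))
  have k4 := EE_add (tf_qX h1.sm h2.sm τ hb hc) (p2.const_mul (4 * τ))
  rw [EE_const_mul] at k1 k4
  rw [EE_const_mul, EE_const_mul] at k3
  rw [z4] at k1
  rw [z2, z3] at k3
  rw [k3, k4] at k2
  rw [k2] at k1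
  refine k1.trans ?_
  ring

/-- The terms with `∇b ∇c`. -/
def PA (s₁ s₂ : MF n) (τ : ℝ) (b c : VV n → ℝ) (z : VV n) : ℝ :=
  4 * τ * (uu z * ∑ i, ∑ j, (Nn s₁ z.1 i j * (Ax i b z * (Ax j c z + By j c z) -
    By j b z * (Ax i c z + By i c z)) + (Nn s₁ z.1 i j - Nn s₂ z.2 i j) * By i b z * By j c z)) +
    2 * τ * (Ex s₁ b c z - Ey s₂ b c z)

/-- The terms with `b ∇c` of order `τ`. -/
def PB (s₁ s₂ : MF n) (τ : ℝ) (b c : VV n → ℝ) (z : VV n) : ℝ :=
  -(4 * τ) * (b z * (Gax s₁ uu c z - Gay s₂ uu c z)) -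
    4 * τ * (b z * ∑ i, ∑ j, LL (wN s₁ i j) c i j z)

/-- The terms with `b c`. -/
def PD (s₁ s₂ : MF n) (τ : ℝ) (z : VV n) : ℝ :=
  τ * (-(L0x s₁ (kax s₁) z - L0y s₂ (kay s₂) z) +
      2 * (Gax s₁ uu (vx s₁) z - Gay s₂ uu (vy s₂) z)) +
    4 * τ * (uu z * (vx s₁ z - vy s₂ z)) +
    4 * τ ^ 2 * (Gax s₁ uu (kay s₂) z - Gay s₂ uu (kax s₁) z + uu z * (kax s₁ z - kay s₂ z)) +
    τ ^ 3 * (2 * (Gax s₁ uu (Fxs s₁) z - Gay s₂ uu (Fys s₂) z) + 4 * (uu z * (Fxs s₁ z - Fys s₂ z)))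

lemma RR_eq (h1 : TS n 3 ε s₁) (h2 : TS n 3 ε s₂) (τ : ℝ) {b c : VV n → ℝ} (hb : SU b)
    (hc : SU c) {z : VV n} (hz : z ∈ Un n) :
    RR s₁ s₂ τ b c z = PA s₁ s₂ τ b c z + PB s₁ s₂ τ b c z +
      8 * τ ^ 2 * (b z * C1 s₁ s₂ c z) + PD s₁ s₂ τ z * (b z * c z) := by
  have e1 := Gx_eq h1 hb hc hz
  have e2 := Gy_eq h2 hb hc hz
  have e3 := K_comm h1 h2 hc hz
  have e4 : Gax s₁ c (fun z => uu z * b z) z = uu z * Gax s₁ c b z + b z * Gax s₁ c uu z :=
    Gax_mul s₁ su_uu hb hz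
  have e5 : Gay s₂ c (fun z => uu z * b z) z = uu z * Gay s₂ c b z + b z * Gay s₂ c uu z :=
    Gay_mul s₂ su_uu hb hz
  rw [Gax_comm h1.sy c b, Gax_comm h1.sy c uu] at e4
  rw [Gay_comm h2.sy c b, Gay_comm h2.sy c uu] at e5
  have e6 : Kxs s₁ c z = 2 * Gax s₁ uu c z + kax s₁ z * c z := by rw [Kxs_eq, ← kax_eq]
  have e7 : Kys s₂ c z = 2 * Gay s₂ uu c z + kay s₂ z * c z := by rw [Kys_eq, ← kay_eq]
  have e8 : Dxs s₁ c z = L0x s₁ c z + vx s₁ z * c z := rfl
  have e9 : Dys s₂ c z = L0y s₂ c z + vy s₂ z * c z := rfl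
  have e10 : ∑ i, ∑ j, (wN s₁ i j z * ((Ax i b z + By i b z) * By j c z -
      By j b z * (Ax i c z + By i c z)) - b z * LL (wN s₁ i j) c i j z) =
      uu z * (∑ i, ∑ j, (Nn s₁ z.1 i j * (Ax i b z * (Ax j c z + By j c z) -
        By j b z * (Ax i c z + By i c z)) +
        (Nn s₁ z.1 i j - Nn s₂ z.2 i j) * By i b z * By j c z)) -
      uu z * ∑ i, ∑ j, Nn s₁ z.1 i j * Ax i b z * Ax j c z +
      uu z * ∑ i, ∑ j, Nn s₂ z.2 i j * By i b z * By j c z -
      b z * ∑ i, ∑ j, LL (wN s₁ i j) c i j z := by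
    simp only [Finset.mul_sum, ← Finset.sum_sub_distrib, ← Finset.sum_add_distrib]
    refine Finset.sum_congr rfl fun i _ => Finset.sum_congr rfl fun j _ => ?_
    unfold wN
    ring
  unfold RR qX Px Py
  rw [e1, e2, e3, e4, e5, e6, e7, e8, e9, e10]
  unfold PA PB PD
  ring

end main

end Vale.Agent.P088.HY.EQX
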