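import Vale.Agent.P088.R2.H87.X4

/-!
# P088, bounds at a point for the mixed term
-/

open MeasureTheory Set Filter
open scoped ContDiff Matrix Topology

noncomputable section

namespace Vale.Agent.P088.HY.EQX

open Vale.Agent.P088.LR

variable {n : ℕ}

section bounds

variable {ε η : ℝ} {s s₁ s₂ : MF n}

lemma abs_PA (h1 : TS n 3 ε s₁) (h2 : TS n 3 ε s₂) (hd : DB 3 η s₁ s₂) (h0 : 0 ≤ ε)
    (hε : ε ≤ 1) {τ : ℝ} (hτ : 0 ≤ τ) (b c : VV n → ℝ) {z : VV n} (hz : z ∈ Un n) :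
    |PA s₁ s₂ τ b c z| ≤ 8 * (n : ℝ) ^ 2 * (n + 1) * (ε * τ * uu z * gr b z * gp c z) +
      (12 * (n : ℝ) ^ 2 * (4 * n + 1) + 4 * cE n) *
        (τ * (ε * ww z + η * uu z) * gr b z * gr c z) := by
  have hu := one_le_uu hz
  have hu0 : (0 : ℝ) ≤ uu z := by linarith
  have hw := ww_nonneg (z := z)
  have hP := gr_nonneg b z
  have hQ := gr_nonneg c z
  have hG := gp_nonneg c z
  have hn : (0 : ℝ) ≤ n := Nat.cast_nonneg n
  have k1 : ∀ i j, |uu z * (Nn s₁ z.1 i j * (Ax i b z * (Ax j c z + By j c z) -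
      By j b z * (Ax i c z + By i c z)) + (Nn s₁ z.1 i j - Nn s₂ z.2 i j) * By i b z *
      By j c z)| ≤ uu z * ((n + 1) * ε * (gr b z * gp c z + gr b z * gp c z)) +
        (4 * n + 1) * (3 * ε * ww z + η * uu z) * gr b z * gr c z := by
    intro i j
    have e : uu z * (Nn s₁ z.1 i j * (Ax i b z * (Ax j c z + By j c z) -
      By j b z * (Ax i c z + By i c z)) + (Nn s₁ z.1 i j - Nn s₂ z.2 i j) * By i b z *
      By j c z) = uu z * (Nn s₁ z.1 i j * (Ax i b z * (Ax j c z + By j c z) -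
      By j b z * (Ax i c z + By i c z))) +
      (uu z * (Nn s₁ z.1 i j - Nn s₂ z.2 i j)) * By i b z * By j c z := by ring
    rw [e]
    refine (abs_add_le _ _).trans (add_le_add ?_ ?_)
    · refine abs_mul_le (by rw [abs_of_nonneg hu0]) (abs_mul_le (abs_Nn h1 h0 hε z.1 i j) ?_)
      exact (abs_sub _ _).trans (add_le_add (abs_mul_le (abs_Ax b z i) (abs_AB c z j))
        (abs_mul_le (abs_By b z j) (abs_AB c z i)))
    · refine abs3 ?_ (abs_By b z i) (abs_By c z j)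
      rw [abs_mul, abs_of_nonneg hu0]
      exact u_Nn_diff h1 h2 hd h0 hε hz i j
  have k2 : |uu z * ∑ i, ∑ j, (Nn s₁ z.1 i j * (Ax i b z * (Ax j c z + By j c z) -
      By j b z * (Ax i c z + By i c z)) + (Nn s₁ z.1 i j - Nn s₂ z.2 i j) * By i b z *
      By j c z)| ≤ n * (n * (uu z * ((n + 1) * ε * (gr b z * gp c z + gr b z * gp c z)) +
        (4 * n + 1) * (3 * ε * ww z + η * uu z) * gr b z * gr c z)) := by
    simp only [Finset.mul_sum]
    exact abs_sum2 k1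
  have k3 := abs_Ex h1 h0 hε hz (fun i => abs_Ax b z i) (fun i => abs_Ax c z i)
  have k4 := abs_Ey h2 h0 hε hz (fun i => abs_By b z i) (fun i => abs_By c z i)
  have hη : 0 ≤ η ∨ n = 0 := by
    rcases Nat.eq_zero_or_pos n with h | h
    · exact Or.inr h
    · have i : Fin n := ⟨0, h⟩
      exact Or.inl ((abs_nonneg _).trans (db_0 hd 0 i i))
  unfold PA
  have k5 : |4 * τ * (uu z * ∑ i, ∑ j, (Nn s₁ z.1 i j * (Ax i b z * (Ax j c z + By j c z) -
      By j b z * (Ax i c z + By i c z)) + (Nn s₁ z.1 i j - Nn s₂ z.2 i j) * By i b z *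
      By j c z))| ≤ 4 * τ * (n * (n * (uu z * ((n + 1) * ε * (gr b z * gp c z +
        gr b z * gp c z)) + (4 * n + 1) * (3 * ε * ww z + η * uu z) * gr b z * gr c z))) :=
    abs_mul_le (by rw [abs_of_nonneg (by positivity)]) k2
  have k6 : |2 * τ * (Ex s₁ b c z - Ey s₂ b c z)| ≤ 2 * τ *
      (cE n * (ε * ww z * gr b z * gr c z) + cE n * (ε * ww z * gr b z * gr c z)) :=
    abs_mul_le (by rw [abs_of_nonneg (by positivity)]) ((abs_sub _ _).trans (add_le_add k3 k4))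
  refine (abs_add_le _ _).trans ((add_le_add k5 k6).trans ?_)
  have hcE := cE_nonneg n
  rcases hη with hη | hη
  · have m1 : 0 ≤ τ * (η * uu z) * gr b z * gr c z := by positivity
    have m2 : 0 ≤ cE n * (τ * (η * uu z) * gr b z * gr c z) := mul_nonneg hcE m1
    have m3 : 0 ≤ (n : ℝ) ^ 2 * (4 * n + 1) * (τ * (η * uu z) * gr b z * gr c z) := by positivity
    nlinarith
  · subst hη
    have : cE 0 = 0 := by unfold cE; norm_num
    rw [this]
    norm_num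

/-- `|LL|` for a weight with bounds. -/
lemma abs_LL {w c : VV n → ℝ} {z : VV n} (hz : z ∈ Un n) {κ : ℝ} (hw : |w z| ≤ κ)
    (ha : ∀ k, |Ax k w z| ≤ κ) (hb : ∀ k, |By k w z| ≤ κ) (i j : Fin n) :
    |LL w c i j z| ≤ (4 * n + 10) * (κ * gr c z) := by
  have hA := fun i => abs_Ax c z i
  have hB := fun i => abs_By c z i
  have hD : ∀ i, |Ax i c z + By i c z| ≤ gr c z + gr c z := fun i =>
    (abs_add_le _ _).trans (add_le_add (hA i) (hB i))
  have hn : |(n : ℝ) - 1| ≤ n + 1 := by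
    have : (0 : ℝ) ≤ n := Nat.cast_nonneg n
    rw [abs_le]; constructor <;> linarith
  have t1 : |(Ax i w z + By i w z) * By j c z| ≤ (κ + κ) * gr c z :=
    abs_mul_le ((abs_add_le _ _).trans (add_le_add (ha i) (hb i))) (hB j)
  have t2 : |By j w z * (Ax i c z + By i c z)| ≤ κ * (gr c z + gr c z) := abs_mul_le (hb j) (hD i)
  have t3 : |w z * (z.2 j * By i c z - z.2 i * By j c z)| ≤ κ * (1 * gr c z + 1 * gr c z) :=
    abs_mul_le hw ((abs_sub _ _).trans (add_le_add (abs_mul_le (abs_y_le hz j) (hB i))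
      (abs_mul_le (abs_y_le hz i) (hB j))))
  have t4 : |((n : ℝ) - 1) * (z.1 i + z.2 i) * w z * By j c z| ≤
      (n + 1) * (1 + 1) * κ * gr c z :=
    abs_mul_le (abs3 hn ((abs_add_le _ _).trans (add_le_add (abs_x_le hz i) (abs_y_le hz i))) hw)
      (hB j)
  have t5 : |((n : ℝ) - 1) * z.2 j * w z * (Ax i c z + By i c z)| ≤
      (n + 1) * 1 * κ * (gr c z + gr c z) :=
    abs_mul_le (abs3 hn (abs_y_le hz j) hw) (hD i)
  unfold LL
  have s1 := abs_add_le (-((Ax i w z + By i w z) * By j c z) +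
    By j w z * (Ax i c z + By i c z) - w z * (z.2 j * By i c z - z.2 i * By j c z) -
    (n - 1) * (z.1 i + z.2 i) * w z * By j c z) ((n - 1) * z.2 j * w z * (Ax i c z + By i c z))
  have s2 := abs_sub (-((Ax i w z + By i w z) * By j c z) +
    By j w z * (Ax i c z + By i c z) - w z * (z.2 j * By i c z - z.2 i * By j c z))
    ((n - 1) * (z.1 i + z.2 i) * w z * By j c z)
  have s3 := abs_sub (-((Ax i w z + By i w z) * By j c z) +
    By j w z * (Ax i c z + By i c z)) (w z * (z.2 j * By i c z - z.2 i * By j c z))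
  have s4 := abs_add_le (-((Ax i w z + By i w z) * By j c z)) (By j w z * (Ax i c z + By i c z))
  rw [abs_neg] at s4
  nlinarith

lemma Ax_Nn (h : TS n 3 ε s) (h0 : 0 ≤ ε) (hε : ε ≤ 1) {z : VV n} (hz : z ∈ Un n)
    (i j k : Fin n) : |Ax k (fun z => Nn s z.1 i j) z| ≤ (4 * n + 1) * ε := by
  have e : Ax k (fun z => Nn s z.1 i j) z =
      ∑ l, (Ax k (sx s i l) z * s z.1 j l + s z.1 i l * Ax k (sx s j l) z) -
        Ax k (sx s i j) z := by
    have e1 : (fun z : VV n => Nn s z.1 i j) =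
        fun z => (∑ l, sx s i l z * sx s j l z) - sx s i j z := rfl
    have hs : SU (fun z : VV n => ∑ l, sx s i l z * sx s j l z) :=
      su_sum fun l => (su_sx h.sm i l).mul (su_sx h.sm j l)
    rw [e1, Ax_eq, Dr_sub hs (su_sx h.sm i j) hz]
    congr 1
    rw [Dr_sum Finset.univ (fun l => (su_sx h.sm i l).mul (su_sx h.sm j l)) hz]
    refine Finset.sum_congr rfl fun l _ => ?_
    rw [Dr_mul (su_sx h.sm i l) (su_sx h.sm j l) hz]
    rfl
  rw [e]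
  have t1 : |∑ l, (Ax k (sx s i l) z * s z.1 j l + s z.1 i l * Ax k (sx s j l) z)| ≤
      n * (ε * 2 + 2 * ε) :=
    abs_sum1 fun l => (abs_add_le _ _).trans (add_le_add
      (abs_mul_le (Ax_s1 h h0 hz i l k) (ts_le2 h hε _ _ _))
      (abs_mul_le (ts_le2 h hε _ _ _) (Ax_s1 h h0 hz j l k)))
  have t2 : |Ax k (sx s i j) z| ≤ ε := Ax_s1 h h0 hz i j k
  refine (abs_sub _ _).trans ?_
  nlinarith

lemma By_Nn (s : MF n) (z : VV n) (i j k : Fin n) : By k (fun z => Nn s z.1 i j) z = 0 := by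
  unfold By
  rw [dy_comp_fst (fun x => Nn s x i j) z, mul_zero]

lemma abs_wN (h : TS n 3 ε s) (h0 : 0 ≤ ε) (hε : ε ≤ 1) {z : VV n} (hz : z ∈ Un n)
    (i j : Fin n) : |wN s i j z| ≤ (5 * n + 2) * (ε * uu z) := by
  have hu := one_le_uu hz
  have hn : (0 : ℝ) ≤ n := Nat.cast_nonneg n
  have k := abs_Nn h h0 hε z.1 i j
  have hε2 : 0 ≤ ε * uu z := by positivity
  unfold wN
  rw [abs_mul, abs_of_nonneg (by linarith)]
  have : uu z * |Nn s z.1 i j| ≤ uu z * ((n + 1) * ε) :=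
    mul_le_mul_of_nonneg_left k (by linarith)
  nlinarith [mul_nonneg hn hε2]

lemma abs_Ax_wN (h : TS n 3 ε s) (h0 : 0 ≤ ε) (hε : ε ≤ 1) {z : VV n} (hz : z ∈ Un n)
    (i j k : Fin n) : |Ax k (wN s i j) z| ≤ (5 * n + 2) * (ε * uu z) := by
  have hu := one_le_uu hz
  have hu0 : (0 : ℝ) ≤ uu z := by linarith
  have hn : (0 : ℝ) ≤ n := Nat.cast_nonneg n
  have e : Ax k (wN s i j) z = al k z * Nn s z.1 i j + uu z * Ax k (fun z => Nn s z.1 i j) z :=
    Ax_mul su_uu (su_Nn h.sm i j) hz k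
  have t1 : |al k z * Nn s z.1 i j| ≤ uu z * ((n + 1) * ε) :=
    abs_mul_le (abs_al_le hz k) (abs_Nn h h0 hε z.1 i j)
  have t2 : |uu z * Ax k (fun z => Nn s z.1 i j) z| ≤ uu z * ((4 * n + 1) * ε) :=
    abs_mul_le (by rw [abs_of_nonneg hu0]) (Ax_Nn h h0 hε hz i j k)
  rw [e]
  refine (abs_add_le _ _).trans ((add_le_add t1 t2).trans (le_of_eq ?_))
  ring

lemma abs_By_wN (h : TS n 3 ε s) (h0 : 0 ≤ ε) (hε : ε ≤ 1) {z : VV n} (hz : z ∈ Un n)
    (i j k : Fin n) : |By k (wN s i j) z| ≤ (5 * n + 2) * (ε * uu z) := by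
  have hu := one_le_uu hz
  have hn : (0 : ℝ) ≤ n := Nat.cast_nonneg n
  have e : By k (wN s i j) z = be k z * Nn s z.1 i j + uu z * By k (fun z => Nn s z.1 i j) z :=
    By_mul su_uu (su_Nn h.sm i j) hz k
  have t1 : |be k z * Nn s z.1 i j| ≤ uu z * ((n + 1) * ε) :=
    abs_mul_le (abs_be_le hz k) (abs_Nn h h0 hε z.1 i j)
  have hε2 : 0 ≤ ε * uu z := by positivity
  rw [e, By_Nn, mul_zero, add_zero]
  refine t1.trans ?_
  nlinarith [mul_nonneg hn hε2]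

lemma abs_Gax_uu (h : TS n 3 ε s) (hε : ε ≤ 1) {z : VV n} (hz : z ∈ Un n) {g : VV n → ℝ} {M : ℝ}
    (hg : ∀ j, |Ax j g z| ≤ M) : |Gax s uu g z| ≤ n * (n * (2 * ww z * M)) :=
  abs_sum2 fun i j => abs3 (ts_le2 h hε z.1 i j) (abs_al hz i) (hg j)

lemma abs_Gay_uu (h : TS n 3 ε s) (hε : ε ≤ 1) {z : VV n} (hz : z ∈ Un n) {g : VV n → ℝ} {M : ℝ}
    (hg : ∀ j, |By j g z| ≤ M) : |Gay s uu g z| ≤ n * (n * (2 * ww z * M)) :=
  abs_sum2 fun i j => abs3 (ts_le2 h hε z.2 i j) (abs_be hz i) (hg j)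

lemma abs_PB (h1 : TS n 3 ε s₁) (h2 : TS n 3 ε s₂) (h0 : 0 ≤ ε)
    (hε : ε ≤ 1) {τ : ℝ} (hτ : 0 ≤ τ) (b c : VV n → ℝ) {z : VV n} (hz : z ∈ Un n) :
    |PB s₁ s₂ τ b c z| ≤ 16 * (n : ℝ) ^ 2 * (τ * ww z * |b z| * gr c z) +
      4 * (n : ℝ) ^ 2 * (4 * n + 10) * (5 * n + 2) * (ε * τ * uu z * |b z| * gr c z) := by
  have k1 := abs_Gax_uu h1 hε hz (fun i => abs_Ax c z i)
  have k2 := abs_Gay_uu h2 hε hz (fun i => abs_By c z i)
  have k3 : |∑ i, ∑ j, LL (wN s₁ i j) c i j z| ≤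
      n * (n * ((4 * n + 10) * ((5 * n + 2) * (ε * uu z) * gr c z))) :=
    abs_sum2 fun i j => abs_LL hz (abs_wN h1 h0 hε hz i j) (fun k => abs_Ax_wN h1 h0 hε hz i j k)
      (fun k => abs_By_wN h1 h0 hε hz i j k) i j
  unfold PB
  have t1 : |-(4 * τ) * (b z * (Gax s₁ uu c z - Gay s₂ uu c z))| ≤
      4 * τ * (|b z| * (n * (n * (2 * ww z * gr c z)) + n * (n * (2 * ww z * gr c z)))) :=
    abs_mul_le (by rw [abs_neg, abs_of_nonneg (by positivity)])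
      (abs_mul_le le_rfl ((abs_sub _ _).trans (add_le_add k1 k2)))
  have t2 : |4 * τ * (b z * ∑ i, ∑ j, LL (wN s₁ i j) c i j z)| ≤
      4 * τ * (|b z| * (n * (n * ((4 * n + 10) * ((5 * n + 2) * (ε * uu z) * gr c z))))) :=
    abs_mul_le (by rw [abs_of_nonneg (by positivity)]) (abs_mul_le le_rfl k3)
  refine (abs_sub _ _).trans ((add_le_add t1 t2).trans (le_of_eq ?_))
  ring

lemma abs_diff (h1 : TS n 3 ε s₁) (hd : DB 3 η s₁ s₂) (h0 : 0 ≤ ε) {z : VV n}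
    (hz : z ∈ Un n) (i j : Fin n) : |s₁ z.1 i j - s₂ z.2 i j| ≤ 3 * ε * ww z + η := by
  have hu := one_le_uu hz
  have a1 := ts_lip h1 z.1 z.2 i j
  have a2 := db_0 hd z.2 i j
  have a3 := u_dist hz
  have a4 : ‖z.1 - z.2‖ ≤ 3 * ww z := by
    have := norm_nonneg (z.1 - z.2)
    nlinarith
  have a5 : |s₁ z.1 i j - s₂ z.2 i j| ≤ ε * ‖z.1 - z.2‖ + η := by
    have : s₁ z.1 i j - s₂ z.2 i j = (s₁ z.1 i j - s₁ z.2 i j) + (s₁ z.2 i j - s₂ z.2 i j) := by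
      ring
    rw [this]
    exact (abs_add_le _ _).trans (add_le_add a1 a2)
  nlinarith [mul_le_mul_of_nonneg_left a4 h0]

lemma abs_C1 (h1 : TS n 3 ε s₁) (h2 : TS n 3 ε s₂) (hd : DB 3 η s₁ s₂) (h0 : 0 ≤ ε)
    (hε : ε ≤ 1) (c : VV n → ℝ) {z : VV n} (hz : z ∈ Un n) :
    |C1 s₁ s₂ c z| ≤ (12 * (n : ℝ) ^ 4 + 17 * (n : ℝ) ^ 3) * (ε * ww z ^ 2 * gr c z) +
      2 * (n : ℝ) ^ 3 * (ε * ww z * gp c z) + 3 * (n : ℝ) ^ 3 * (η * ww z * gr c z) := by
  have hA := fun i => abs_Ax c z i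
  have hB := fun i => abs_By c z i
  have hD := fun i => abs_AB c z i
  -- replace `m` by `-1`
  have e1 : ∑ i, ∑ j, ∑ k, ∑ l, (s₁ z.1 i j - kd i j) * al i z * mm j k z * s₂ z.2 k l * By l c z =
      ∑ i, ∑ j, ∑ k, ∑ l,
        (s₁ z.1 i j - kd i j) * al i z * (mm j k z + kd j k) * s₂ z.2 k l * By l c z -
      ∑ i, ∑ j, ∑ l, (s₁ z.1 i j - kd i j) * al i z * s₂ z.2 j l * By l c z := by
    rw [← Finset.sum_sub_distrib]
    refine Finset.sum_congr rfl fun i _ => ?_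
    rw [← Finset.sum_sub_distrib]
    refine Finset.sum_congr rfl fun j _ => ?_
    have : ∑ l, (s₁ z.1 i j - kd i j) * al i z * s₂ z.2 j l * By l c z =
        ∑ k, ∑ l, (s₁ z.1 i j - kd i j) * al i z * kd j k * s₂ z.2 k l * By l c z := by
      have e2 : ∀ k, ∑ l, (s₁ z.1 i j - kd i j) * al i z * kd j k * s₂ z.2 k l * By l c z =
          kd j k * ∑ l, (s₁ z.1 i j - kd i j) * al i z * s₂ z.2 k l * By l c z := by
        intro k
        rw [Finset.mul_sum]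
        exact Finset.sum_congr rfl fun l _ => by ring
      simp only [e2]
      exact (sum_kd j fun k => ∑ l, (s₁ z.1 i j - kd i j) * al i z * s₂ z.2 k l * By l c z).symm
    rw [this]
    simp only [← Finset.sum_sub_distrib]
    exact Finset.sum_congr rfl fun k _ => Finset.sum_congr rfl fun l _ => by ring
  have e2 : ∑ i, ∑ j, ∑ k, ∑ l, (s₂ z.2 i j - kd i j) * be i z * mm k j z * s₁ z.1 k l * Ax l c z =
      ∑ i, ∑ j, ∑ k, ∑ l,
        (s₂ z.2 i j - kd i j) * be i z * (mm k j z + kd k j) * s₁ z.1 k l * Ax l c z -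
      ∑ i, ∑ j, ∑ l, (s₂ z.2 i j - kd i j) * be i z * s₁ z.1 j l * Ax l c z := by
    rw [← Finset.sum_sub_distrib]
    refine Finset.sum_congr rfl fun i _ => ?_
    rw [← Finset.sum_sub_distrib]
    refine Finset.sum_congr rfl fun j _ => ?_
    have : ∑ l, (s₂ z.2 i j - kd i j) * be i z * s₁ z.1 j l * Ax l c z =
        ∑ k, ∑ l, (s₂ z.2 i j - kd i j) * be i z * kd k j * s₁ z.1 k l * Ax l c z := by
      have e2 : ∀ k, ∑ l, (s₂ z.2 i j - kd i j) * be i z * kd k j * s₁ z.1 k l * Ax l c z =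
          kd k j * ∑ l, (s₂ z.2 i j - kd i j) * be i z * s₁ z.1 k l * Ax l c z := by
        intro k
        rw [Finset.mul_sum]
        exact Finset.sum_congr rfl fun l _ => by ring
      simp only [e2]
      exact (sum_kd' j fun k => ∑ l, (s₂ z.2 i j - kd i j) * be i z * s₁ z.1 k l * Ax l c z).symm
    rw [this]
    simp only [← Finset.sum_sub_distrib]
    exact Finset.sum_congr rfl fun k _ => Finset.sum_congr rfl fun l _ => by ring
  have e3 : ∑ i, ∑ j, ∑ l, (s₂ z.2 i j - kd i j) * be i z * s₁ z.1 j l * Ax l c z -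
      ∑ i, ∑ j, ∑ l, (s₁ z.1 i j - kd i j) * al i z * s₂ z.2 j l * By l c z =
      ∑ i, ∑ j, ∑ l, (-((s₁ z.1 i j - kd i j) * al i z * s₂ z.2 j l * (Ax l c z + By l c z)) +
        ((s₁ z.1 i j - s₂ z.2 i j) * kd j l + (s₁ z.1 i j - s₂ z.2 i j) * (s₂ z.2 j l - kd j l) -
          (s₂ z.2 i j - kd i j) * (s₁ z.1 j l - s₂ z.2 j l)) * al i z * Ax l c z +
        (s₂ z.2 i j - kd i j) * (al i z + be i z) * s₁ z.1 j l * Ax l c z) := by
    simp only [← Finset.sum_sub_distrib]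
    exact Finset.sum_congr rfl fun i _ => Finset.sum_congr rfl fun j _ =>
      Finset.sum_congr rfl fun l _ => by ring
  have hη := abs_diff h1 hd h0 hz
  have t1 : |∑ i, ∑ j, ∑ k, ∑ l,
        (s₁ z.1 i j - kd i j) * al i z * (mm j k z + kd j k) * s₂ z.2 k l * By l c z| ≤
      n * (n * (n * (n * (ε * ww z * (3 * ww z) * 2 * gr c z)))) :=
    abs_sum4 fun i j k l => five (ts_0 h1 z.1 i j) (abs_al hz i) (abs_mm hz j k)
      (ts_le2 h2 hε _ _ _) (hB l)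
  have t2 : |∑ i, ∑ j, ∑ k, ∑ l,
        (s₂ z.2 i j - kd i j) * be i z * (mm k j z + kd k j) * s₁ z.1 k l * Ax l c z| ≤
      n * (n * (n * (n * (ε * ww z * (3 * ww z) * 2 * gr c z)))) :=
    abs_sum4 fun i j k l => five (ts_0 h2 z.2 i j) (abs_be hz i) (abs_mm hz k j)
      (ts_le2 h1 hε _ _ _) (hA l)
  have t3 : |∑ i, ∑ j, ∑ l, (-((s₁ z.1 i j - kd i j) * al i z * s₂ z.2 j l *
        (Ax l c z + By l c z)) +
        ((s₁ z.1 i j - s₂ z.2 i j) * kd j l + (s₁ z.1 i j - s₂ z.2 i j) * (s₂ z.2 j l - kd j l) -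
          (s₂ z.2 i j - kd i j) * (s₁ z.1 j l - s₂ z.2 j l)) * al i z * Ax l c z +
        (s₂ z.2 i j - kd i j) * (al i z + be i z) * s₁ z.1 j l * Ax l c z)| ≤
      n * (n * (n * (ε * ww z * 2 * gp c z + ((3 * ε * ww z + η) * 1 + (3 * ε * ww z + η) * 1 +
        1 * (3 * ε * ww z + η)) * ww z * gr c z + ε * (4 * ww z ^ 2) * 2 * gr c z))) := by
    refine abs_sum3 fun i j l => ?_
    refine (abs_add_le _ _).trans (add_le_add ((abs_add_le _ _).trans (add_le_add ?_ ?_)) ?_)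
    · rw [abs_neg]
      exact abs_mul_le (abs3 (ts_0 h1 z.1 i j) (abs_al hz i) (ts_le2 h2 hε _ _ _)) (hD l)
    · refine abs3 ?_ (abs_al hz i) (hA l)
      refine (abs_sub _ _).trans (add_le_add ((abs_add_le _ _).trans (add_le_add ?_ ?_)) ?_)
      · exact abs_mul_le (hη i j) (abs_kd j l)
      · exact abs_mul_le (hη i j) ((ts_0 h2 z.2 j l).trans hε)
      · exact abs_mul_le ((ts_0 h2 z.2 i j).trans hε) (hη j l)
    · exact abs_mul_le (abs3 (ts_0 h2 z.2 i j) (abs_albe hz i) (ts_le2 h1 hε _ _ _)) (hA l)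
  unfold C1
  rw [e1, e2]
  have e4 : (∑ i, ∑ j, ∑ k, ∑ l,
        (s₁ z.1 i j - kd i j) * al i z * (mm j k z + kd j k) * s₂ z.2 k l * By l c z -
      ∑ i, ∑ j, ∑ l, (s₁ z.1 i j - kd i j) * al i z * s₂ z.2 j l * By l c z) -
      (∑ i, ∑ j, ∑ k, ∑ l,
        (s₂ z.2 i j - kd i j) * be i z * (mm k j z + kd k j) * s₁ z.1 k l * Ax l c z -
      ∑ i, ∑ j, ∑ l, (s₂ z.2 i j - kd i j) * be i z * s₁ z.1 j l * Ax l c z) =
      (∑ i, ∑ j, ∑ k, ∑ l,
        (s₁ z.1 i j - kd i j) * al i z * (mm j k z + kd j k) * s₂ z.2 k l * By l c z -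
      ∑ i, ∑ j, ∑ k, ∑ l,
        (s₂ z.2 i j - kd i j) * be i z * (mm k j z + kd k j) * s₁ z.1 k l * Ax l c z) +
      (∑ i, ∑ j, ∑ l, (s₂ z.2 i j - kd i j) * be i z * s₁ z.1 j l * Ax l c z -
      ∑ i, ∑ j, ∑ l, (s₁ z.1 i j - kd i j) * al i z * s₂ z.2 j l * By l c z) := by ring
  rw [e4, e3]
  refine (abs_add_le _ _).trans ((add_le_add ((abs_sub _ _).trans (add_le_add t1 t2)) t3).trans
    (le_of_eq ?_))
  ring

/-- Two quadratic forms at `α` and `β`. -/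
lemma quad {M₁ M₂ : Fin n → Fin n → ℝ} {z : VV n} (hz : z ∈ Un n) {m d : ℝ}
    (h2 : ∀ i j, |M₂ i j| ≤ m) (hd : ∀ i j, uu z * |M₁ i j - M₂ i j| ≤ d) :
    |uu z * (∑ i, ∑ j, M₁ i j * al i z * al j z - ∑ i, ∑ j, M₂ i j * be i z * be j z)| ≤
      n * (n * (d * ww z ^ 2 + m * (8 * ww z ^ 3))) := by
  have hu := one_le_uu hz
  have hu0 : (0 : ℝ) ≤ uu z := by linarith
  have e : uu z * (∑ i, ∑ j, M₁ i j * al i z * al j z - ∑ i, ∑ j, M₂ i j * be i z * be j z) =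
      ∑ i, ∑ j, ((uu z * (M₁ i j - M₂ i j)) * (al i z * al j z) +
        M₂ i j * ((uu z * (al i z + be i z)) * al j z - be i z * (uu z * (al j z + be j z)))) := by
    simp only [← Finset.sum_sub_distrib, Finset.mul_sum]
    exact Finset.sum_congr rfl fun i _ => Finset.sum_congr rfl fun j _ => by ring
  have hs : ∀ i, |uu z * (al i z + be i z)| ≤ 4 * ww z ^ 2 := by
    intro i
    rw [abs_mul, abs_of_nonneg hu0]
    exact u_albe hz i
  rw [e]
  refine abs_sum2 fun i j => (abs_add_le _ _).trans (add_le_add ?_ ?_)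
  · have : d * ww z ^ 2 = d * (ww z * ww z) := by ring
    rw [this]
    refine abs_mul_le ?_ (abs_mul_le (abs_al hz i) (abs_al hz j))
    rw [abs_mul, abs_of_nonneg hu0]
    exact hd i j
  · have : m * (8 * ww z ^ 3) = m * (4 * ww z ^ 2 * ww z + ww z * (4 * ww z ^ 2)) := by ring
    rw [this]
    exact abs_mul_le (h2 i j) ((abs_sub _ _).trans (add_le_add
      (abs_mul_le (hs i) (abs_al hz j)) (abs_mul_le (abs_be hz i) (hs j))))

lemma Fxs_h (s : MF n) {z : VV n} (hz : z ∈ Un n) :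
    Fxs s z = ∑ i, ∑ j, (s z.1 i j - kd i j) * al i z * al j z + (uu z ^ 2 - 1) := by
  rw [sum_sub_kd (fun i j => s z.1 i j) (fun i => al i z) (fun j => al j z), sum_al_sq hz]
  show ∑ i, ∑ j, s z.1 i j * al i z * al j z = _
  ring

lemma Fys_h (s : MF n) {z : VV n} (hz : z ∈ Un n) :
    Fys s z = ∑ i, ∑ j, (s z.2 i j - kd i j) * be i z * be j z + (uu z ^ 2 - 1) := by
  rw [sum_sub_kd (fun i j => s z.2 i j) (fun i => be i z) (fun j => be j z), sum_be_sq hz]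
  show ∑ i, ∑ j, s z.2 i j * be i z * be j z = _
  ring

lemma u_F_diff (h1 : TS n 3 ε s₁) (h2 : TS n 3 ε s₂) (hd : DB 3 η s₁ s₂) (h0 : 0 ≤ ε)
    {z : VV n} (hz : z ∈ Un n) :
    |uu z * (Fxs s₁ z - Fys s₂ z)| ≤
      n * (n * ((3 * ε * ww z + η * uu z) * ww z ^ 2 + ε * (8 * ww z ^ 3))) := by
  have e : Fxs s₁ z - Fys s₂ z = ∑ i, ∑ j, (s₁ z.1 i j - kd i j) * al i z * al j z -
      ∑ i, ∑ j, (s₂ z.2 i j - kd i j) * be i z * be j z := by
    rw [Fxs_h s₁ hz, Fys_h s₂ hz]; ring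
  rw [e]
  refine quad (M₁ := fun i j => s₁ z.1 i j - kd i j) (M₂ := fun i j => s₂ z.2 i j - kd i j) hz
    (fun i j => ts_0 h2 z.2 i j) fun i j => ?_
  have : s₁ z.1 i j - kd i j - (s₂ z.2 i j - kd i j) = s₁ z.1 i j - s₂ z.2 i j := by ring
  show uu z * |s₁ z.1 i j - kd i j - (s₂ z.2 i j - kd i j)| ≤ _
  rw [this]
  exact u_diff h1 hd h0 hz i j

lemma abs_F_diff (h1 : TS n 3 ε s₁) (h2 : TS n 3 ε s₂) {z : VV n} (hz : z ∈ Un n) :
    |Fxs s₁ z - Fys s₂ z| ≤ 2 * (n : ℝ) ^ 2 * (ε * ww z ^ 2) := by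
  have e : Fxs s₁ z - Fys s₂ z = ∑ i, ∑ j, (s₁ z.1 i j - kd i j) * al i z * al j z -
      ∑ i, ∑ j, (s₂ z.2 i j - kd i j) * be i z * be j z := by
    rw [Fxs_h s₁ hz, Fys_h s₂ hz]; ring
  rw [e]
  have t1 := abs_sum2 (fun i j => abs3 (ts_0 h1 z.1 i j) (abs_al hz i) (abs_al hz j))
  have t2 := abs_sum2 (fun i j => abs3 (ts_0 h2 z.2 i j) (abs_be hz i) (abs_be hz j))
  refine (abs_sub _ _).trans ((add_le_add t1 t2).trans (le_of_eq ?_))
  ring

/-- The terms of order `τ³`. -/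
lemma abs_D4 (h1 : TS n 3 ε s₁) (h2 : TS n 3 ε s₂) (hd : DB 3 η s₁ s₂) (h0 : 0 ≤ ε)
    (hε : ε ≤ 1) {z : VV n} (hz : z ∈ Un n) :
    |2 * (Gax s₁ uu (Fxs s₁) z - Gay s₂ uu (Fys s₂) z) + 4 * (uu z * (Fxs s₁ z - Fys s₂ z))| ≤
      4 * (n * (n * ((4 * n + 1) * (3 * ε * ww z + η * uu z) * ww z ^ 2 +
        (n + 1) * ε * (8 * ww z ^ 3)))) +
      8 * (n * (n * ((3 * ε * ww z + η * uu z) * ww z ^ 2 + ε * (8 * ww z ^ 3)))) +
      4 * cE n * (ε * ww z ^ 3) := by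
  have e1 := Gx_eq h1 su_uu su_uu hz
  have e2 := Gy_eq h2 su_uu su_uu hz
  have f1 : Gx s₁ uu uu z = Gax s₁ uu (Fxs s₁) z := by
    unfold Gx
    rw [Fxs_eq]; ring
  have f2 : Gy s₂ uu uu z = Gay s₂ uu (Fys s₂) z := by
    have : Fys s₂ = Gay s₂ uu uu := rfl
    unfold Gy
    rw [this]; ring
  rw [f1] at e1
  rw [f2] at e2
  have g1 : Gax s₁ uu uu z = Fxs s₁ z := rfl
  have g2' : Gay s₂ uu uu z = Fys s₂ z := rfl
  rw [g1] at e1
  rw [g2'] at e2
  have g3 : ∑ i, ∑ j, Nn s₁ z.1 i j * Ax i uu z * Ax j uu z =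
      ∑ i, ∑ j, Nn s₁ z.1 i j * al i z * al j z := rfl
  have g4 : ∑ i, ∑ j, Nn s₂ z.2 i j * By i uu z * By j uu z =
      ∑ i, ∑ j, Nn s₂ z.2 i j * be i z * be j z := rfl
  rw [g3] at e1
  rw [g4] at e2
  have t1 := quad (M₁ := fun i j => Nn s₁ z.1 i j) (M₂ := fun i j => Nn s₂ z.2 i j) hz
    (fun i j => abs_Nn h2 h0 hε z.2 i j) (fun i j => u_Nn_diff h1 h2 hd h0 hε hz i j)
  have t2 := u_F_diff h1 h2 hd h0 hz
  have t3 := abs_Ex h1 h0 hε (b := uu) (c := uu) hz (fun i => abs_al hz i) (fun i => abs_al hz i)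
  have t4 := abs_Ey h2 h0 hε (b := uu) (c := uu) hz (fun i => abs_be hz i) (fun i => abs_be hz i)
  have e3 : 2 * (Gax s₁ uu (Fxs s₁) z - Gay s₂ uu (Fys s₂) z) +
      4 * (uu z * (Fxs s₁ z - Fys s₂ z)) =
      4 * (uu z * (∑ i, ∑ j, Nn s₁ z.1 i j * al i z * al j z -
        ∑ i, ∑ j, Nn s₂ z.2 i j * be i z * be j z)) + 8 * (uu z * (Fxs s₁ z - Fys s₂ z)) +
      2 * (Ex s₁ uu uu z - Ey s₂ uu uu z) := by
    rw [e1, e2]; ring
  rw [e3]
  refine (abs_add_le _ _).trans (add_le_add ((abs_add_le _ _).trans (add_le_add ?_ ?_)) ?_)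
  · exact abs_mul_le (by norm_num) t1
  · exact abs_mul_le (by norm_num) t2
  · have : 4 * cE n * (ε * ww z ^ 3) = 2 * (cE n * (ε * ww z * ww z * ww z) +
      cE n * (ε * ww z * ww z * ww z)) := by ring
    rw [this]
    exact abs_mul_le (by norm_num) ((abs_sub _ _).trans (add_le_add t3 t4))

/-- `κ_x - κ_y`. -/
lemma abs_ka_diff (h1 : TS n 3 ε s₁) (h2 : TS n 3 ε s₂) (hd : DB 3 η s₁ s₂) (h0 : 0 ≤ ε)
    {z : VV n} (hz : z ∈ Un n) : |kax s₁ z - kay s₂ z| ≤ n * (3 * ε * ww z + η * uu z) +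
      2 * ((n : ℝ) ^ 2 + (n : ℝ) ^ 3) * (ε * ww z) := by
  have hu := one_le_uu hz
  have hu0 : (0 : ℝ) ≤ uu z := by linarith
  have kk : ∑ i : Fin n, kd i i = (n : ℝ) := by simp [kd]
  have e1 : ∑ i, s₁ z.1 i i = ∑ i, (s₁ z.1 i i - kd i i) + n := by
    rw [Finset.sum_sub_distrib, kk]; ring
  have e2 : ∑ i, s₂ z.2 i i = ∑ i, (s₂ z.2 i i - kd i i) + n := by
    rw [Finset.sum_sub_distrib, kk]; ring
  have e3 := sum_sub_kd (fun i j => s₁ z.1 i j) (fun i => z.1 i) (fun j => al j z)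
  have e4 := sum_sub_kd (fun i j => s₂ z.2 i j) (fun i => z.2 i) (fun j => be j z)
  have e5 : ∑ i, z.1 i * al i z = xa z := rfl
  have e6 : ∑ i, z.2 i * be i z = yb z := rfl
  rw [e5] at e3
  rw [e6] at e4
  have e7 : ∑ i, (s₁ z.1 i i - kd i i) - ∑ i, (s₂ z.2 i i - kd i i) =
      ∑ i, (s₁ z.1 i i - s₂ z.2 i i) := by
    rw [← Finset.sum_sub_distrib]
    exact Finset.sum_congr rfl fun i _ => by ring
  have e8 : kax s₁ z - kay s₂ z = ∑ i, uu z * (s₁ z.1 i i - s₂ z.2 i i) +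
      ((-((∑ i, (s₁ z.1 i i - kd i i)) * xa z) +
        n * ∑ i, ∑ j, (s₁ z.1 i j - kd i j) * z.1 i * al j z) -
      (-((∑ i, (s₂ z.2 i i - kd i i)) * yb z) +
        n * ∑ i, ∑ j, (s₂ z.2 i j - kd i j) * z.2 i * be j z)) := by
    rw [kax_formula h1 hz, kay_formula h2 hz, ← Finset.mul_sum, e3, e4, e1, e2]
    linear_combination (uu z) * e7
  have t1 : |∑ i, uu z * (s₁ z.1 i i - s₂ z.2 i i)| ≤ n * (3 * ε * ww z + η * uu z) :=
    abs_sum1 fun i => by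
      rw [abs_mul, abs_of_nonneg hu0]
      exact u_diff h1 hd h0 hz i i
  have t2 : |-((∑ i, (s₁ z.1 i i - kd i i)) * xa z) +
        n * ∑ i, ∑ j, (s₁ z.1 i j - kd i j) * z.1 i * al j z| ≤
      (n * ε) * (n * (1 * ww z)) + n * (n * (n * (ε * 1 * ww z))) := by
    refine (abs_add_le _ _).trans (add_le_add ?_ ?_)
    · rw [abs_neg]
      exact abs_mul_le (abs_sum1 fun i => ts_0 h1 z.1 i i) (abs_xa hz)
    · refine abs_mul_le (by rw [abs_of_nonneg (Nat.cast_nonneg n)]) (abs_sum2 fun i j => ?_)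
      exact abs3 (ts_0 h1 z.1 i j) (abs_x_le hz i) (abs_al hz j)
  have t3 : |-((∑ i, (s₂ z.2 i i - kd i i)) * yb z) +
        n * ∑ i, ∑ j, (s₂ z.2 i j - kd i j) * z.2 i * be j z| ≤
      (n * ε) * (n * (1 * ww z)) + n * (n * (n * (ε * 1 * ww z))) := by
    refine (abs_add_le _ _).trans (add_le_add ?_ ?_)
    · rw [abs_neg]
      exact abs_mul_le (abs_sum1 fun i => ts_0 h2 z.2 i i) (abs_yb hz)
    · refine abs_mul_le (by rw [abs_of_nonneg (Nat.cast_nonneg n)]) (abs_sum2 fun i j => ?_)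
      exact abs3 (ts_0 h2 z.2 i j) (abs_y_le hz i) (abs_be hz j)
  rw [e8]
  refine (abs_add_le _ _).trans ((add_le_add t1 ((abs_sub _ _).trans (add_le_add t2 t3))).trans
    (le_of_eq ?_))
  ring

/-- The potential. -/
lemma abs_vp (h : TS n 3 ε s) {x : V n} (hx : x ∈ Bn n) :
    |vp s x - ga n * (ga n + 1)| ≤
      (|ga n| * n + |ga n * (ga n + 1)| * (n : ℝ) ^ 2) * ε := by
  have hr : 0 < rr x := rr_pos hx
  have hr2 : rr x ≤ 1 / 2 := rr_le x
  have kk : ∑ i : Fin n, kd i i = (n : ℝ) := by simp [kd]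
  have e1 : ∑ i, s x i i = ∑ i, (s x i i - kd i i) + n := by
    rw [Finset.sum_sub_distrib, kk]; ring
  have e3 := sum_sub_kd (fun i j => s x i j) (fun i => x i) (fun j => x j)
  have e4 : ∑ i, x i * x i = 1 - 2 * rr x := by
    have : ∑ i, x i * x i = sq x := Finset.sum_congr rfl fun i _ => (pow_two _).symm
    rw [this, sq_eq]
  rw [e4] at e3
  have hx1 : ∀ i, |x i| ≤ 1 := by
    intro i
    have h2 : x i ^ 2 ≤ sq x :=
      Finset.single_le_sum (f := fun i => x i ^ 2) (fun j _ => sq_nonneg _) (Finset.mem_univ i)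
    have h3 : sq x < 1 := hx
    exact abs_le_of_sq_le_sq (by linarith) (by norm_num)
  have e5 : vp s x - ga n * (ga n + 1) = ga n * (rr x * ∑ i, (s x i i - kd i i)) +
      ga n * (ga n + 1) * ∑ i, ∑ j, (s x i j - kd i j) * x i * x j := by
    have e6 : ∑ i, ∑ j, s x i j * x i * x j = ∑ i, ∑ j, (s x i j - kd i j) * x i * x j +
        (1 - 2 * rr x) := by rw [e3]; ring
    unfold vp
    rw [e1, e6]
    have : (n : ℝ) = 2 * ga n + 2 := by unfold ga; ring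
    linear_combination (ga n * rr x) * this
  rw [e5]
  have t1 : |ga n * (rr x * ∑ i, (s x i i - kd i i))| ≤ |ga n| * (1 * (n * ε)) :=
    abs_mul_le le_rfl (abs_mul_le (by rw [abs_of_pos hr]; linarith)
      (abs_sum1 fun i => ts_0 h x i i))
  have t2 : |ga n * (ga n + 1) * ∑ i, ∑ j, (s x i j - kd i j) * x i * x j| ≤
      |ga n * (ga n + 1)| * (n * (n * (ε * 1 * 1))) :=
    abs_mul_le le_rfl (abs_sum2 fun i j => abs3 (ts_0 h x i j) (hx1 i) (hx1 j))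
  refine (abs_add_le _ _).trans ((add_le_add t1 t2).trans (le_of_eq ?_))
  ring

end bounds

end Vale.Agent.P088.HY.EQX
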