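import Vale.Agent.P088.R2.H87.X5

/-!
# P088, the coefficient of `b c` in the mixed term
-/

open MeasureTheory Set Filter
open scoped ContDiff Matrix Topology

noncomputable section

namespace Vale.Agent.P088.HY.EQX

open Vale.Agent.P088.LR

variable {n : ℕ}

/-- The constant in the bound of the potential. -/
def cv (n : ℕ) : ℝ := |ga n| * n + |ga n * (ga n + 1)| * (n : ℝ) ^ 2

lemma cv_nonneg (n : ℕ) : 0 ≤ cv n := by unfold cv; positivity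

section bounds

variable {ε η : ℝ} {s s₁ s₂ : MF n}

lemma abs_vdiff (h1 : TS n 3 ε s₁) (h2 : TS n 3 ε s₂) {z : VV n} (hz : z ∈ Un n) :
    |vx s₁ z - vy s₂ z| ≤ 2 * cv n * ε := by
  have a1 : |vx s₁ z - ga n * (ga n + 1)| ≤ cv n * ε := abs_vp h1 hz.1
  have a2 : |vy s₂ z - ga n * (ga n + 1)| ≤ cv n * ε := abs_vp h2 hz.2
  have e : vx s₁ z - vy s₂ z = (vx s₁ z - ga n * (ga n + 1)) - (vy s₂ z - ga n * (ga n + 1)) := by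
    ring
  rw [e]
  refine (abs_sub _ _).trans ((add_le_add a1 a2).trans (le_of_eq ?_))
  ring

lemma Gax_kay (h1 : TS n 3 ε s₁) (hε : ε ≤ 1) {C₀ : ℝ} {z : VV n} (hz : z ∈ Un n)
    (hk : ∀ i, |Ax i (kay s₂) z - n * al i z| ≤ C₀ * ε * uu z) :
    |Gax s₁ uu (kay s₂) z - n * Fxs s₁ z| ≤ n * (n * (2 * ww z * (C₀ * ε * uu z))) := by
  have e : Gax s₁ uu (kay s₂) z - n * Fxs s₁ z =
      ∑ i, ∑ j, s₁ z.1 i j * al i z * (Ax j (kay s₂) z - n * al j z) := by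
    have e1 : Fxs s₁ z = ∑ i, ∑ j, s₁ z.1 i j * al i z * al j z := rfl
    have e2 : Gax s₁ uu (kay s₂) z = ∑ i, ∑ j, s₁ z.1 i j * al i z * Ax j (kay s₂) z := rfl
    rw [e1, e2]
    simp only [Finset.mul_sum, ← Finset.sum_sub_distrib]
    exact Finset.sum_congr rfl fun i _ => Finset.sum_congr rfl fun j _ => by ring
  rw [e]
  exact abs_sum2 fun i j => abs3 (ts_le2 h1 hε z.1 i j) (abs_al hz i) (hk j)

lemma Gay_kax (h2 : TS n 3 ε s₂) (hε : ε ≤ 1) {C₀ : ℝ} {z : VV n} (hz : z ∈ Un n)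
    (hk : ∀ i, |By i (kax s₁) z - n * be i z| ≤ C₀ * ε * uu z) :
    |Gay s₂ uu (kax s₁) z - n * Fys s₂ z| ≤ n * (n * (2 * ww z * (C₀ * ε * uu z))) := by
  have e : Gay s₂ uu (kax s₁) z - n * Fys s₂ z =
      ∑ i, ∑ j, s₂ z.2 i j * be i z * (By j (kax s₁) z - n * be j z) := by
    have e1 : Fys s₂ z = ∑ i, ∑ j, s₂ z.2 i j * be i z * be j z := rfl
    have e2 : Gay s₂ uu (kax s₁) z = ∑ i, ∑ j, s₂ z.2 i j * be i z * By j (kax s₁) z := rfl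
    rw [e1, e2]
    simp only [Finset.mul_sum, ← Finset.sum_sub_distrib]
    exact Finset.sum_congr rfl fun i _ => Finset.sum_congr rfl fun j _ => by ring
  rw [e]
  exact abs_sum2 fun i j => abs3 (ts_le2 h2 hε z.2 i j) (abs_be hz i) (hk j)

/-- The constant in the bound of `PD`. -/
def cD (n : ℕ) (C₀ : ℝ) : ℝ := 6 * C₀ + 8 * cv n + 4 * (4 * (n : ℝ) ^ 3 + 2 * (n : ℝ) ^ 2 +
  4 * (n : ℝ) ^ 2 * C₀ + 4 * n) + (12 * (n : ℝ) ^ 2 * (4 * n + 1) + 32 * (n : ℝ) ^ 2 * (n + 1) +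
  88 * (n : ℝ) ^ 2 + 4 * cE n)

lemma abs_D3 (h1 : TS n 3 ε s₁) (h2 : TS n 3 ε s₂) (hd : DB 3 η s₁ s₂) (h0 : 0 ≤ ε)
    (hε : ε ≤ 1) {C₀ : ℝ} {z : VV n} (hz : z ∈ Un n)
    (hk1 : ∀ i, |By i (kax s₁) z - n * be i z| ≤ C₀ * ε * uu z)
    (hk2 : ∀ i, |Ax i (kay s₂) z - n * al i z| ≤ C₀ * ε * uu z) :
    |Gax s₁ uu (kay s₂) z - Gay s₂ uu (kax s₁) z + uu z * (kax s₁ z - kay s₂ z)| ≤
      (4 * (n : ℝ) ^ 3 + 2 * (n : ℝ) ^ 2 + 4 * (n : ℝ) ^ 2 * C₀ + 3 * n) * (ε * ww z * uu z) +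
        n * (η * uu z ^ 2) := by
  have hu := one_le_uu hz
  have hu0 : (0 : ℝ) ≤ uu z := by linarith
  have hw := ww_nonneg (z := z)
  have hwu := ww_le hz
  have hn : (0 : ℝ) ≤ n := Nat.cast_nonneg n
  have k1 := Gax_kay h1 hε hz hk2
  have k2 := Gay_kax h2 hε hz hk1
  have k3 := abs_F_diff h1 h2 hz
  have k4 := abs_ka_diff h1 h2 hd h0 hz
  have e : Gax s₁ uu (kay s₂) z - Gay s₂ uu (kax s₁) z + uu z * (kax s₁ z - kay s₂ z) =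
      (Gax s₁ uu (kay s₂) z - n * Fxs s₁ z) - (Gay s₂ uu (kax s₁) z - n * Fys s₂ z) +
      (n * (Fxs s₁ z - Fys s₂ z) + uu z * (kax s₁ z - kay s₂ z)) := by ring
  rw [e]
  have k5 : |n * (Fxs s₁ z - Fys s₂ z)| ≤ n * (2 * (n : ℝ) ^ 2 * (ε * ww z ^ 2)) :=
    abs_mul_le (by rw [abs_of_nonneg hn]) k3
  have k6 : |uu z * (kax s₁ z - kay s₂ z)| ≤ uu z * (n * (3 * ε * ww z + η * uu z) +
      2 * ((n : ℝ) ^ 2 + (n : ℝ) ^ 3) * (ε * ww z)) :=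
    abs_mul_le (by rw [abs_of_nonneg hu0]) k4
  refine (abs_add_le _ _).trans ((add_le_add ((abs_sub _ _).trans (add_le_add k1 k2))
    ((abs_add_le _ _).trans (add_le_add k5 k6))).trans ?_)
  have k7 : ε * ww z ^ 2 ≤ ε * ww z * uu z := by
    have : ε * ww z ^ 2 = ε * ww z * ww z := by ring
    rw [this]
    exact mul_le_mul_of_nonneg_left hwu (mul_nonneg h0 hw)
  have k8 : n * (2 * (n : ℝ) ^ 2 * (ε * ww z ^ 2)) ≤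
      n * (2 * (n : ℝ) ^ 2 * (ε * ww z * uu z)) := by
    refine mul_le_mul_of_nonneg_left (mul_le_mul_of_nonneg_left k7 (by positivity)) hn
  nlinarith

lemma abs_PD (h1 : TS n 3 ε s₁) (h2 : TS n 3 ε s₂) (hd : DB 3 η s₁ s₂) (h0 : 0 ≤ ε)
    (hε : ε ≤ 1) {C₀ : ℝ} (hC : 0 ≤ C₀) {z : VV n} (hz : z ∈ Un n)
    (hk1 : ∀ i, |By i (kax s₁) z - n * be i z| ≤ C₀ * ε * uu z)
    (hk2 : ∀ i, |Ax i (kay s₂) z - n * al i z| ≤ C₀ * ε * uu z)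
    (hl1 : |L0x s₁ (kax s₁) z - n ^ 2 * uu z| ≤ C₀ * ε * uu z)
    (hl2 : |L0y s₂ (kay s₂) z - n ^ 2 * uu z| ≤ C₀ * ε * uu z)
    (hg1 : |Gax s₁ uu (vx s₁) z| ≤ C₀ * ε * uu z) (hg2 : |Gay s₂ uu (vy s₂) z| ≤ C₀ * ε * uu z)
    {τ : ℝ} (hτ : 1 ≤ τ) (hη : τ * η ≤ ε) :
    |PD s₁ s₂ τ z| ≤ cD n C₀ * (ε * (τ * uu z) + ε * (τ ^ 2 * ww z * uu z) +
      ε * (τ * uu z ^ 2) + ε * (τ ^ 3 * ww z ^ 3) + ε * (τ ^ 2 * uu z * ww z ^ 2)) := by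
  have hu := one_le_uu hz
  have hu0 : (0 : ℝ) ≤ uu z := by linarith
  have hw := ww_nonneg (z := z)
  have hn : (0 : ℝ) ≤ n := Nat.cast_nonneg n
  have hτ0 : (0 : ℝ) ≤ τ := by linarith
  have hcv := cv_nonneg n
  have hcE := cE_nonneg n
  -- D1
  have e1 : |-(L0x s₁ (kax s₁) z - L0y s₂ (kay s₂) z) +
      2 * (Gax s₁ uu (vx s₁) z - Gay s₂ uu (vy s₂) z)| ≤ 6 * C₀ * (ε * uu z) := by
    rw [abs_le] at hl1 hl2 hg1 hg2 ⊢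
    constructor <;> nlinarith
  have f1 : |τ * (-(L0x s₁ (kax s₁) z - L0y s₂ (kay s₂) z) +
      2 * (Gax s₁ uu (vx s₁) z - Gay s₂ uu (vy s₂) z))| ≤ τ * (6 * C₀ * (ε * uu z)) :=
    abs_mul_le (by rw [abs_of_nonneg hτ0]) e1
  -- D2
  have f2 : |4 * τ * (uu z * (vx s₁ z - vy s₂ z))| ≤ 4 * τ * (uu z * (2 * cv n * ε)) :=
    abs_mul_le (by rw [abs_of_nonneg (by positivity)])
      (abs_mul_le (by rw [abs_of_nonneg hu0]) (abs_vdiff h1 h2 hz))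
  -- D3
  have f3 : |4 * τ ^ 2 * (Gax s₁ uu (kay s₂) z - Gay s₂ uu (kax s₁) z +
      uu z * (kax s₁ z - kay s₂ z))| ≤ 4 * τ ^ 2 * ((4 * (n : ℝ) ^ 3 + 2 * (n : ℝ) ^ 2 +
        4 * (n : ℝ) ^ 2 * C₀ + 3 * n) * (ε * ww z * uu z) + n * (η * uu z ^ 2)) :=
    abs_mul_le (by rw [abs_of_nonneg (by positivity)]) (abs_D3 h1 h2 hd h0 hε hz hk1 hk2)
  -- D4
  have f4 : |τ ^ 3 * (2 * (Gax s₁ uu (Fxs s₁) z - Gay s₂ uu (Fys s₂) z) +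
      4 * (uu z * (Fxs s₁ z - Fys s₂ z)))| ≤ τ ^ 3 * (4 * (n * (n * ((4 * n + 1) *
        (3 * ε * ww z + η * uu z) * ww z ^ 2 + (n + 1) * ε * (8 * ww z ^ 3)))) +
      8 * (n * (n * ((3 * ε * ww z + η * uu z) * ww z ^ 2 + ε * (8 * ww z ^ 3)))) +
      4 * cE n * (ε * ww z ^ 3)) :=
    abs_mul_le (by rw [abs_of_nonneg (by positivity)]) (abs_D4 h1 h2 hd h0 hε hz)
  unfold PD
  refine (abs_add_le _ _).trans ((add_le_add ((abs_add_le _ _).trans (add_le_add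
    ((abs_add_le _ _).trans (add_le_add f1 f2)) f3)) f4).trans ?_)
  have g1 : τ * η * (τ * uu z ^ 2) ≤ ε * (τ * uu z ^ 2) :=
    mul_le_mul_of_nonneg_right hη (by positivity)
  have g2 : τ * η * (τ ^ 2 * uu z * ww z ^ 2) ≤ ε * (τ ^ 2 * uu z * ww z ^ 2) :=
    mul_le_mul_of_nonneg_right hη (by positivity)
  have x1 : 0 ≤ ε * (τ * uu z) := by positivity
  have x2 : 0 ≤ ε * (τ ^ 2 * ww z * uu z) := by positivity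
  have x3 : 0 ≤ ε * (τ * uu z ^ 2) := by positivity
  have x4 : 0 ≤ ε * (τ ^ 3 * ww z ^ 3) := by positivity
  have x5 : 0 ≤ ε * (τ ^ 2 * uu z * ww z ^ 2) := by positivity
  -- the five coefficients
  have y1 : 0 ≤ cD n C₀ - (6 * C₀ + 8 * cv n) := by
    have : cD n C₀ - (6 * C₀ + 8 * cv n) = 4 * (4 * (n : ℝ) ^ 3 + 2 * (n : ℝ) ^ 2 +
      4 * (n : ℝ) ^ 2 * C₀ + 4 * n) + (12 * (n : ℝ) ^ 2 * (4 * n + 1) +
      32 * (n : ℝ) ^ 2 * (n + 1) + 88 * (n : ℝ) ^ 2 + 4 * cE n) := by unfold cD; ring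
    rw [this]; positivity
  have y2 : 0 ≤ cD n C₀ - 4 * (4 * (n : ℝ) ^ 3 + 2 * (n : ℝ) ^ 2 +
      4 * (n : ℝ) ^ 2 * C₀ + 3 * n) := by
    have : cD n C₀ - 4 * (4 * (n : ℝ) ^ 3 + 2 * (n : ℝ) ^ 2 + 4 * (n : ℝ) ^ 2 * C₀ + 3 * n) =
      6 * C₀ + 8 * cv n + 4 * n + (12 * (n : ℝ) ^ 2 * (4 * n + 1) +
      32 * (n : ℝ) ^ 2 * (n + 1) + 88 * (n : ℝ) ^ 2 + 4 * cE n) := by unfold cD; ring
    rw [this]; positivity
  have y3 : 0 ≤ cD n C₀ - 4 * n := by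
    have : cD n C₀ - 4 * n = 6 * C₀ + 8 * cv n + 4 * (4 * (n : ℝ) ^ 3 + 2 * (n : ℝ) ^ 2 +
      4 * (n : ℝ) ^ 2 * C₀ + 3 * n) + (12 * (n : ℝ) ^ 2 * (4 * n + 1) +
      32 * (n : ℝ) ^ 2 * (n + 1) + 88 * (n : ℝ) ^ 2 + 4 * cE n) := by unfold cD; ring
    rw [this]; positivity
  have y4 : 0 ≤ cD n C₀ - (12 * (n : ℝ) ^ 2 * (4 * n + 1) + 32 * (n : ℝ) ^ 2 * (n + 1) +
      88 * (n : ℝ) ^ 2 + 4 * cE n) := by
    have : cD n C₀ - (12 * (n : ℝ) ^ 2 * (4 * n + 1) + 32 * (n : ℝ) ^ 2 * (n + 1) +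
      88 * (n : ℝ) ^ 2 + 4 * cE n) = 6 * C₀ + 8 * cv n + 4 * (4 * (n : ℝ) ^ 3 +
      2 * (n : ℝ) ^ 2 + 4 * (n : ℝ) ^ 2 * C₀ + 4 * n) := by unfold cD; ring
    rw [this]; positivity
  have y5 : 0 ≤ cD n C₀ - (4 * (n : ℝ) ^ 2 * (4 * n + 1) + 8 * (n : ℝ) ^ 2) := by
    have : cD n C₀ - (4 * (n : ℝ) ^ 2 * (4 * n + 1) + 8 * (n : ℝ) ^ 2) =
      6 * C₀ + 8 * cv n + 4 * (4 * (n : ℝ) ^ 3 +
      2 * (n : ℝ) ^ 2 + 4 * (n : ℝ) ^ 2 * C₀ + 4 * n) + (8 * (n : ℝ) ^ 2 * (4 * n + 1) +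
      32 * (n : ℝ) ^ 2 * (n + 1) + 80 * (n : ℝ) ^ 2 + 4 * cE n) := by unfold cD; ring
    rw [this]; positivity
  have z1 := mul_nonneg y1 x1
  have z2 := mul_nonneg y2 x2
  have z3 := mul_nonneg y3 x3
  have z4 := mul_nonneg y4 x4
  have z5 := mul_nonneg y5 x5
  have w1 : 4 * (n : ℝ) * (τ * η * (τ * uu z ^ 2)) ≤ 4 * (n : ℝ) * (ε * (τ * uu z ^ 2)) :=
    mul_le_mul_of_nonneg_left g1 (by positivity)
  have w2 : (4 * (n : ℝ) ^ 2 * (4 * n + 1) + 8 * (n : ℝ) ^ 2) *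
      (τ * η * (τ ^ 2 * uu z * ww z ^ 2)) ≤ (4 * (n : ℝ) ^ 2 * (4 * n + 1) + 8 * (n : ℝ) ^ 2) *
      (ε * (τ ^ 2 * uu z * ww z ^ 2)) :=
    mul_le_mul_of_nonneg_left g2 (by positivity)
  linarith

end bounds

end Vale.Agent.P088.HY.EQX
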