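import Vale.Agent.P088.R2.H87.X6

/-!
# P088, the inequality between the monomials of the mixed term and the weights
-/

open MeasureTheory Set Filter
open scoped ContDiff Matrix Topology

noncomputable section

namespace Vale.Agent.P088.HY.EQX

open Vale.Agent.P088.LR

/-- The data at a point. -/
structure Pt (n : ℕ) (u W p τ β γ P Q G H : ℝ) : Prop where
  u1 : 1 ≤ u
  W0 : 0 ≤ W
  Wu : W ≤ u
  p0 : 0 ≤ p
  up : u * p = W ^ 2
  uw : W ^ 2 = u ^ 2 - 1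
  ule : u ≤ 1 + p
  τ1 : 1 ≤ τ
  β0 : 0 ≤ β
  γ0 : 0 ≤ γ
  P0 : 0 ≤ P
  Q0 : 0 ≤ Q
  G0 : 0 ≤ G
  H0 : 0 ≤ H
  hG : u * G ^ 2 ≤ 12 * H + (12 + 108 * (n : ℝ) ^ 2) * (p * Q ^ 2)

/-- The weight of `b`. -/
def NB (u p τ β P : ℝ) : ℝ :=
  τ ^ 3 * (u ^ 2 * p) * β ^ 2 + τ ^ 2 * u ^ 2 * β ^ 2 + τ * u * P ^ 2

/-- The weight of `c`. -/
def NC (u p τ γ Q H : ℝ) : ℝ :=
  τ ^ 3 * (u * p ^ 2) * γ ^ 2 + τ * γ ^ 2 + τ * p * Q ^ 2 + Q ^ 2 + τ * H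

/-- The constant. -/
def kK (n : ℕ) : ℝ := 24 + 108 * (n : ℝ) ^ 2

lemma amgm {x a b : ℝ} (ha : 0 ≤ a) (hb : 0 ≤ b) (h : x ^ 2 ≤ a * b) : x ≤ (a + b) / 2 := by
  refine (abs_le_of_sq_le_sq' (a := x) (b := (a + b) / 2) ?_ (by positivity)).2
  nlinarith [sq_nonneg (a - b)]

section

variable {n : ℕ} {u W p τ β γ P Q G H : ℝ}

namespace Pt

lemma B1 (h : Pt n u W p τ β γ P Q G H) : 0 ≤ τ ^ 3 * (u ^ 2 * p) * β ^ 2 := by
  have := h.p0; have := h.τ1; positivity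

lemma B2 (_h : Pt n u W p τ β γ P Q G H) : 0 ≤ τ ^ 2 * u ^ 2 * β ^ 2 := by positivity

lemma B3 (h : Pt n u W p τ β γ P Q G H) : 0 ≤ τ * u * P ^ 2 := by
  have := h.u1; have := h.τ1; positivity

lemma D1 (h : Pt n u W p τ β γ P Q G H) : 0 ≤ τ ^ 3 * (u * p ^ 2) * γ ^ 2 := by
  have := h.u1; have := h.τ1; positivity

lemma D2 (h : Pt n u W p τ β γ P Q G H) : 0 ≤ τ * γ ^ 2 := by
  have := h.τ1; positivity

lemma D3 (h : Pt n u W p τ β γ P Q G H) : 0 ≤ τ * p * Q ^ 2 := by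
  have := h.p0; have := h.τ1; positivity

lemma D5 (h : Pt n u W p τ β γ P Q G H) : 0 ≤ τ * H := by
  have := h.H0; have := h.τ1; positivity

lemma NB0 (h : Pt n u W p τ β γ P Q G H) : 0 ≤ NB u p τ β P :=
  add_nonneg (add_nonneg h.B1 h.B2) h.B3

lemma NC0 (h : Pt n u W p τ β γ P Q G H) : 0 ≤ NC u p τ γ Q H := by
  have := h.D1; have := h.D2; have := h.D3; have := h.D5; have := sq_nonneg Q
  unfold NC; linarith

lemma nb1 (h : Pt n u W p τ β γ P Q G H) : τ ^ 3 * (u ^ 2 * p) * β ^ 2 ≤ NB u p τ β P := by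
  have := h.B2; have := h.B3
  unfold NB; linarith

lemma nb2 (h : Pt n u W p τ β γ P Q G H) : τ ^ 2 * u ^ 2 * β ^ 2 ≤ NB u p τ β P := by
  have := h.B1; have := h.B3
  unfold NB; linarith

lemma nb3 (h : Pt n u W p τ β γ P Q G H) : τ * u * P ^ 2 ≤ NB u p τ β P := by
  have := h.B1; have := h.B2
  unfold NB; linarith

lemma nc1 (h : Pt n u W p τ β γ P Q G H) : τ ^ 3 * (u * p ^ 2) * γ ^ 2 ≤ NC u p τ γ Q H := by
  have := h.D2; have := h.D3; have := h.D5; have := sq_nonneg Q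
  unfold NC; linarith

lemma nc2 (h : Pt n u W p τ β γ P Q G H) : τ * γ ^ 2 ≤ NC u p τ γ Q H := by
  have := h.D1; have := h.D3; have := h.D5; have := sq_nonneg Q
  unfold NC; linarith

lemma nc3 (h : Pt n u W p τ β γ P Q G H) : τ * p * Q ^ 2 ≤ NC u p τ γ Q H := by
  have := h.D1; have := h.D2; have := h.D5; have := sq_nonneg Q
  unfold NC; linarith

lemma nc4 (h : Pt n u W p τ β γ P Q G H) : Q ^ 2 ≤ NC u p τ γ Q H := by
  have := h.D1; have := h.D2; have := h.D3; have := h.D5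
  unfold NC; linarith

lemma nc5 (h : Pt n u W p τ β γ P Q G H) : τ * H ≤ NC u p τ γ Q H := by
  have := h.D1; have := h.D2; have := h.D3; have := sq_nonneg Q
  unfold NC; linarith

/-- `γ² + u ψ² γ²`. -/
lemma nc12 (h : Pt n u W p τ β γ P Q G H) : (1 + u * p ^ 2) * γ ^ 2 ≤ NC u p τ γ Q H := by
  have h1 := h.τ1
  have h2 : 0 ≤ u * p ^ 2 * γ ^ 2 := by have := h.u1; positivity
  have h3 : u * p ^ 2 * γ ^ 2 ≤ τ ^ 3 * (u * p ^ 2 * γ ^ 2) :=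
    le_mul_of_one_le_left h2 (one_le_pow₀ h1)
  have h4 : γ ^ 2 ≤ τ * γ ^ 2 := le_mul_of_one_le_left (sq_nonneg γ) h1
  have := h.D3; have := h.D5; have := sq_nonneg Q
  unfold NC; nlinarith

/-- `τ γ² + τ u ψ² γ²`. -/
lemma nc12' (h : Pt n u W p τ β γ P Q G H) : τ * ((1 + u * p ^ 2) * γ ^ 2) ≤ NC u p τ γ Q H := by
  have h1 := h.τ1
  have h2 : 0 ≤ τ * (u * p ^ 2 * γ ^ 2) := by have := h.u1; positivity
  have h3 : τ * (u * p ^ 2 * γ ^ 2) ≤ τ ^ 2 * (τ * (u * p ^ 2 * γ ^ 2)) :=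
    le_mul_of_one_le_left h2 (one_le_pow₀ h1)
  have := h.D3; have := h.D5; have := sq_nonneg Q
  unfold NC; nlinarith

lemma tG (h : Pt n u W p τ β γ P Q G H) : τ * (u * G ^ 2) ≤ kK n * NC u p τ γ Q H := by
  have h1 := h.τ1
  have h2 := mul_le_mul_of_nonneg_left h.hG (by linarith : (0 : ℝ) ≤ τ)
  have h3 := h.nc3
  have h4 := h.nc5
  have h5 : (12 + 108 * (n : ℝ) ^ 2) * (τ * p * Q ^ 2) ≤
      (12 + 108 * (n : ℝ) ^ 2) * NC u p τ γ Q H := mul_le_mul_of_nonneg_left h3 (by positivity)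
  unfold kK
  nlinarith

lemma p34 (h : Pt n u W p τ β γ P Q G H) (h2 : 2 ≤ u) : 3 / 4 * u ≤ p := by
  have h3 := h.up
  rw [h.uw] at h3
  have h0 : 0 < u := by linarith
  refine le_of_mul_le_mul_left ?_ h0
  rw [h3]; nlinarith

lemma u_le (h : Pt n u W p τ β γ P Q G H) : u ≤ 2 * (1 + u * p ^ 2) := by
  rcases le_total u 2 with h2 | h2
  · have : 0 ≤ u * p ^ 2 := by have := h.u1; positivity
    linarith
  · have h3 := h.p34 h2
    have h4 : (1 : ℝ) ≤ p := by linarith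
    have h5 : (1 : ℝ) ≤ p ^ 2 := one_le_pow₀ h4
    nlinarith

lemma usq_le (h : Pt n u W p τ β γ P Q G H) : u ^ 2 ≤ 4 * (1 + u * p ^ 2) := by
  rcases le_total u 2 with h2 | h2
  · have h1 := h.u1
    have : 0 ≤ u * p ^ 2 := by positivity
    nlinarith
  · have h3 := h.p34 h2
    have h4 : (3 / 2 : ℝ) ≤ p := by linarith
    have h5 : u * p ≤ u * p ^ 2 := by
      have : 0 ≤ u * p := mul_nonneg (by linarith) h.p0
      nlinarith
    have h6 : u * (3 / 4 * u) ≤ u * p := mul_le_mul_of_nonneg_left h3 (by linarith)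
    nlinarith

lemma usp_le (h : Pt n u W p τ β γ P Q G H) : u * W ^ 2 ≤ 6 * (1 + u * p ^ 2) := by
  rcases le_total u 2 with h2 | h2
  · have h1 := h.u1
    have h3 : 0 ≤ u * p ^ 2 := by positivity
    rw [h.uw]
    nlinarith
  · have h3 := h.p34 h2
    have h4 : u * p * (3 / 4 * u) ≤ u * p * p :=
      mul_le_mul_of_nonneg_left h3 (mul_nonneg (by linarith) h.p0)
    rw [← h.up]
    nlinarith

/-! ### The monomials -/

lemma k1 (_h : Pt n u W p τ β γ P Q G H) : (24 : ℝ) ≤ kK n := by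
  unfold kK; nlinarith [sq_nonneg (n : ℝ)]

lemma fin (h : Pt n u W p τ β γ P Q G H) {x a b : ℝ} (h1 : x ≤ (a + b) / 2)
    (ha : a ≤ kK n * NB u p τ β P) (hb : b ≤ kK n * NC u p τ γ Q H) :
    x ≤ kK n * (NB u p τ β P + NC u p τ γ Q H) := by
  have h2 := mul_nonneg (by linarith [h.k1] : 0 ≤ kK n) h.NB0
  have h3 := mul_nonneg (by linarith [h.k1] : 0 ≤ kK n) h.NC0
  linarith

lemma up1 (h : Pt n u W p τ β γ P Q G H) {a : ℝ} (ha : a ≤ NB u p τ β P) :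
    a ≤ kK n * NB u p τ β P :=
  ha.trans (le_mul_of_one_le_left h.NB0 (by linarith [h.k1]))

lemma up2 (h : Pt n u W p τ β γ P Q G H) {a c : ℝ} (hc : c ≤ 24)
    (ha : a ≤ c * NC u p τ γ Q H) : a ≤ kK n * NC u p τ γ Q H :=
  ha.trans (mul_le_mul_of_nonneg_right (hc.trans h.k1) h.NC0)

lemma up2' (h : Pt n u W p τ β γ P Q G H) {a : ℝ} (ha : a ≤ NC u p τ γ Q H) :
    a ≤ kK n * NC u p τ γ Q H :=
  ha.trans (le_mul_of_one_le_left h.NC0 (by linarith [h.k1]))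

/-- (M1) `τ u P G`. -/
lemma m1 (h : Pt n u W p τ β γ P Q G H) :
    τ * u * P * G ≤ kK n * (NB u p τ β P + NC u p τ γ Q H) := by
  have hτ := h.τ1
  have hu := h.u1
  refine h.fin (amgm (a := τ * u * P ^ 2) (b := τ * (u * G ^ 2)) h.B3 (by positivity)
    (le_of_eq (by ring))) (h.up1 h.nb3) h.tG

/-- (M2) `τ W P Q`. -/
lemma m2 (h : Pt n u W p τ β γ P Q G H) :
    τ * W * P * Q ≤ kK n * (NB u p τ β P + NC u p τ γ Q H) := by
  refine h.fin (amgm (a := τ * u * P ^ 2) (b := τ * p * Q ^ 2) h.B3 h.D3 (le_of_eq ?_))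
    (h.up1 h.nb3) (h.up2' h.nc3)
  linear_combination -(τ ^ 2 * P ^ 2 * Q ^ 2) * h.up

/-- (M2') `u P Q`. -/
lemma m2' (h : Pt n u W p τ β γ P Q G H) :
    u * P * Q ≤ kK n * (NB u p τ β P + NC u p τ γ Q H) := by
  have hτ := h.τ1
  have hu := h.u1
  have a1 : u * P ^ 2 ≤ NB u p τ β P := by
    refine le_trans ?_ h.nb3
    have : 0 ≤ u * P ^ 2 := by positivity
    nlinarith
  have a2 : u * Q ^ 2 ≤ 2 * NC u p τ γ Q H := by
    have b1 := h.nc3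
    have b2 := h.nc4
    have b3 : p * Q ^ 2 ≤ τ * (p * Q ^ 2) :=
      le_mul_of_one_le_left (mul_nonneg h.p0 (sq_nonneg Q)) hτ
    have b4 : u * Q ^ 2 ≤ (1 + p) * Q ^ 2 := mul_le_mul_of_nonneg_right h.ule (sq_nonneg Q)
    nlinarith
  refine h.fin (amgm (a := u * P ^ 2) (b := u * Q ^ 2) (by positivity) (by positivity)
    (le_of_eq ?_)) (h.up1 a1) (h.up2 (by norm_num) a2)
  ring

/-- (M3) `√τ τ W β Q`. -/
lemma m3 (h : Pt n u W p τ β γ P Q G H) :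
    √τ * (τ * W * β * Q) ≤ kK n * (NB u p τ β P + NC u p τ γ Q H) := by
  have hτ := h.τ1
  have hu := h.u1
  have hs : √τ ^ 2 = τ := Real.sq_sqrt (by linarith)
  have a1 : τ ^ 2 * u * β ^ 2 ≤ NB u p τ β P := by
    refine le_trans ?_ h.nb2
    have : 0 ≤ τ ^ 2 * u * β ^ 2 := by positivity
    nlinarith
  refine h.fin (amgm (a := τ ^ 2 * u * β ^ 2) (b := τ * p * Q ^ 2) (by positivity) h.D3
    (le_of_eq ?_)) (h.up1 a1) (h.up2' h.nc3)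
  linear_combination (τ ^ 2 * W ^ 2 * β ^ 2 * Q ^ 2) * hs - (τ ^ 3 * β ^ 2 * Q ^ 2) * h.up

/-- (M4) `τ u β Q`. -/
lemma m4 (h : Pt n u W p τ β γ P Q G H) :
    τ * u * β * Q ≤ kK n * (NB u p τ β P + NC u p τ γ Q H) := by
  refine h.fin (amgm (a := τ ^ 2 * u ^ 2 * β ^ 2) (b := Q ^ 2) h.B2 (sq_nonneg Q)
    (le_of_eq ?_)) (h.up1 h.nb2) (h.up2' h.nc4)
  ring

/-- (M5) `τ² W² β Q`. -/
lemma m5 (h : Pt n u W p τ β γ P Q G H) :
    τ ^ 2 * W ^ 2 * β * Q ≤ kK n * (NB u p τ β P + NC u p τ γ Q H) := by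
  refine h.fin (amgm (a := τ ^ 3 * (u ^ 2 * p) * β ^ 2) (b := τ * p * Q ^ 2) h.B1 h.D3
    (le_of_eq ?_)) (h.up1 h.nb1) (h.up2' h.nc3)
  linear_combination -(τ ^ 4 * β ^ 2 * Q ^ 2) * (u * p + W ^ 2) * h.up

/-- (M6) `τ² W β G`. -/
lemma m6 (h : Pt n u W p τ β γ P Q G H) :
    τ ^ 2 * W * β * G ≤ kK n * (NB u p τ β P + NC u p τ γ Q H) := by
  have hτ := h.τ1
  have hu := h.u1
  refine h.fin (amgm (a := τ ^ 3 * (u ^ 2 * p) * β ^ 2) (b := τ * (u * G ^ 2)) h.B1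
    (by positivity) ?_) (h.up1 h.nb1) h.tG
  have a1 : W ^ 2 ≤ u ^ 3 * p := by
    have : u ^ 3 * p = u ^ 2 * W ^ 2 := by rw [← h.up]; ring
    rw [this]
    exact le_mul_of_one_le_left (sq_nonneg W) (one_le_pow₀ hu)
  have a2 : (τ ^ 2 * W * β * G) ^ 2 = (τ ^ 4 * β ^ 2 * G ^ 2) * W ^ 2 := by ring
  have a3 : τ ^ 3 * (u ^ 2 * p) * β ^ 2 * (τ * (u * G ^ 2)) =
      (τ ^ 4 * β ^ 2 * G ^ 2) * (u ^ 3 * p) := by ring
  rw [a2, a3]
  exact mul_le_mul_of_nonneg_left a1 (by positivity)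

/-- (M7) `τ W β Q`. -/
lemma m7 (h : Pt n u W p τ β γ P Q G H) :
    τ * W * β * Q ≤ kK n * (NB u p τ β P + NC u p τ γ Q H) := by
  refine le_trans ?_ h.m4
  have hτ := h.τ1
  have := h.Wu
  have := h.β0
  have := h.Q0
  gcongr

/-- (M8) `τ u β γ`. -/
lemma m8 (h : Pt n u W p τ β γ P Q G H) :
    τ * u * β * γ ≤ kK n * (NB u p τ β P + NC u p τ γ Q H) := by
  have a1 : γ ^ 2 ≤ NC u p τ γ Q H := by
    refine le_trans ?_ h.nc2
    exact le_mul_of_one_le_left (sq_nonneg γ) h.τ1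
  refine h.fin (amgm (a := τ ^ 2 * u ^ 2 * β ^ 2) (b := γ ^ 2) h.B2 (sq_nonneg γ)
    (le_of_eq ?_)) (h.up1 h.nb2) (h.up2' a1)
  ring

/-- (M9) `τ² W u β γ`. -/
lemma m9 (h : Pt n u W p τ β γ P Q G H) :
    τ ^ 2 * W * u * β * γ ≤ kK n * (NB u p τ β P + NC u p τ γ Q H) := by
  have hτ := h.τ1
  have hu := h.u1
  have a1 : τ * u * γ ^ 2 ≤ 2 * NC u p τ γ Q H := by
    have b1 := h.nc12'
    have b2 : τ * (u * γ ^ 2) ≤ τ * (2 * (1 + u * p ^ 2) * γ ^ 2) := by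
      have := mul_le_mul_of_nonneg_right h.u_le (sq_nonneg γ)
      exact mul_le_mul_of_nonneg_left this (by linarith)
    nlinarith
  refine h.fin (amgm (a := τ ^ 3 * (u ^ 2 * p) * β ^ 2) (b := τ * u * γ ^ 2) h.B1
    (by positivity) (le_of_eq ?_)) (h.up1 h.nb1) (h.up2 (by norm_num) a1)
  linear_combination -(τ ^ 4 * u ^ 2 * β ^ 2 * γ ^ 2) * h.up

/-- (M10) `τ u² β γ`. -/
lemma m10 (h : Pt n u W p τ β γ P Q G H) :
    τ * u ^ 2 * β * γ ≤ kK n * (NB u p τ β P + NC u p τ γ Q H) := by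
  have hτ := h.τ1
  have hu := h.u1
  have a1 : u ^ 2 * γ ^ 2 ≤ 4 * NC u p τ γ Q H := by
    have b1 := h.nc12
    have b2 := mul_le_mul_of_nonneg_right h.usq_le (sq_nonneg γ)
    nlinarith
  refine h.fin (amgm (a := τ ^ 2 * u ^ 2 * β ^ 2) (b := u ^ 2 * γ ^ 2) h.B2
    (by positivity) (le_of_eq ?_)) (h.up1 h.nb2) (h.up2 (by norm_num) a1)
  ring

/-- (M11) `τ³ W³ β γ`. -/
lemma m11 (h : Pt n u W p τ β γ P Q G H) :
    τ ^ 3 * W ^ 3 * β * γ ≤ kK n * (NB u p τ β P + NC u p τ γ Q H) := by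
  refine h.fin (amgm (a := τ ^ 3 * (u ^ 2 * p) * β ^ 2) (b := τ ^ 3 * (u * p ^ 2) * γ ^ 2) h.B1
    h.D1 (le_of_eq ?_)) (h.up1 h.nb1) (h.up2' h.nc1)
  have e : u ^ 3 * p ^ 3 = W ^ 6 := by
    have : u ^ 3 * p ^ 3 = (u * p) ^ 3 := by ring
    rw [this, h.up]; ring
  linear_combination -(τ ^ 6 * β ^ 2 * γ ^ 2) * e

/-- (M12) `τ² u W² β γ`. -/
lemma m12 (h : Pt n u W p τ β γ P Q G H) :
    τ ^ 2 * u * W ^ 2 * β * γ ≤ kK n * (NB u p τ β P + NC u p τ γ Q H) := by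
  have hτ := h.τ1
  have hu := h.u1
  have a1 : τ * (u * W ^ 2) * γ ^ 2 ≤ 6 * NC u p τ γ Q H := by
    have b1 := h.nc12'
    have b2 : τ * (u * W ^ 2 * γ ^ 2) ≤ τ * (6 * (1 + u * p ^ 2) * γ ^ 2) := by
      have := mul_le_mul_of_nonneg_right h.usp_le (sq_nonneg γ)
      exact mul_le_mul_of_nonneg_left this (by linarith)
    nlinarith
  refine h.fin (amgm (a := τ ^ 3 * (u ^ 2 * p) * β ^ 2) (b := τ * (u * W ^ 2) * γ ^ 2) h.B1
    (by positivity) (le_of_eq ?_)) (h.up1 h.nb1) (h.up2 (by norm_num) a1)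
  linear_combination -(τ ^ 4 * u ^ 2 * W ^ 2 * β ^ 2 * γ ^ 2) * h.up

end Pt

end

end Vale.Agent.P088.HY.EQX
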